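import Vale.Agent.P315.H519.RunsW
import Vale.Agent.P315.H132.Region
import Vale.Agent.P315.H679.AccDefs

/-!
P315, milestone 2, row M2-H3 (helper638): the weighted machine inequality of one region, one scale,
one class and one offset, in the own rounds `t : ℕ` of the region.

As `H132.region_h3b` (end rows included), with a weight `w u` for every unit (the mass of the
comparison path in the unit), edge weights `a` of the machine, and a predicate `gd` on the units
(units of low density, whose labels are replaced in the comparison route, are not good; nothing is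
counted on them).
-/

set_option autoImplicit false

open Finset

namespace Vale.Agent.P315.H638

open H132 (nx nx_nonneg le_nx nx_le nx_mono nx_sub_le sub_le_nx)
open H782 (val xx)
open H330 (pv)
open H763 (GreedyW errW)
open H519 (blk win hist LstW lhsW Phi0)
open Vale.Agent.P315.Acc (ind)

section defs

variable {Un : Type*} [Fintype Un]

/-- Weighted average of the normalised excesses of the units. -/
noncomputable def VW (DU w c : Un → ℝ) : ℝ := (∑ u, w u * nx (DU u) (w u) (c u)) / ∑ u, w u

/-- Normalised excess of the region. -/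
noncomputable def eW (DU w : Un → ℝ) (c : ℝ) : ℝ := nx (∑ u, DU u) (∑ u, w u) c

/-- Weighted drops of the units in the windows of length `h` inside the block `[b0, b0 + len)`,
over the good units which drop at most by `cN` in the whole block. -/
noncomputable def lhsEW (DU w : Un → ℝ) (gd : Un → Prop) (cN : ℝ) (c : ℕ → Un → ℝ)
    (h len b0 : ℕ) : ℝ :=
  ∑ i ∈ range (len + 1 - h), (∑ u, w u * ((nx (DU u) (w u) (c (b0 + i) u) -
      nx (DU u) (w u) (c (b0 + i + h) u)) *
    ind (nx (DU u) (w u) (c b0 u) - nx (DU u) (w u) (c (b0 + len) u) ≤ cN ∧ gd u))) /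
      ∑ u, w u

theorem sum_cU_le {DU w c : Un → ℝ} (hw : ∀ u, 0 < w u) :
    ∑ u, c u ≤ ∑ u, DU u + ∑ u, w u * nx (DU u) (w u) (c u) := by
  rw [← Finset.sum_add_distrib]
  exact Finset.sum_le_sum fun u _ => le_nx (hw u)

/-- (H1) for the normalised excess. -/
theorem eW_le_VW [Nonempty Un] {DU w : Un → ℝ} (hw : ∀ u, 0 < w u) {cR : ℝ} {cU : Un → ℝ}
    (H1 : cR ≤ ∑ u, cU u) : eW DU w cR ≤ VW DU w cU := by
  have hW : 0 < ∑ u, w u := Finset.sum_pos (fun u _ => hw u) univ_nonempty
  unfold eW VW
  have h0 : 0 ≤ (∑ u, w u * nx (DU u) (w u) (cU u)) / ∑ u, w u :=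
    div_nonneg (Finset.sum_nonneg fun u _ => mul_nonneg (hw u).le nx_nonneg) hW.le
  refine max_le h0 (div_le_div_of_nonneg_right ?_ hW.le)
  have := sum_cU_le (DU := DU) (c := cU) hw
  linarith

/-- The gain bounds the raw difference. -/
theorem sum_sub_leW [Nonempty Un] {DU w : Un → ℝ} (hw : ∀ u, 0 < w u) {ε : ℝ} (hε : 0 ≤ ε)
    {cR : ℝ} {cU : Un → ℝ} (low : ∑ u, DU u - ε * ∑ u, w u ≤ cR) :
    ∑ u, cU u - cR ≤ (∑ u, w u) * (VW DU w cU - eW DU w cR) + (∑ u, w u) * ε := by
  have hW : 0 < ∑ u, w u := Finset.sum_pos (fun u _ => hw u) univ_nonempty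
  have h1 := sum_cU_le (DU := DU) (c := cU) hw
  have h2 := nx_le (D := ∑ u, DU u) hW hε low
  have h3 : (∑ u, w u) * VW DU w cU = ∑ u, w u * nx (DU u) (w u) (cU u) := by
    unfold VW
    rw [mul_div_cancel₀ _ hW.ne']
  rw [mul_sub, h3]
  unfold eW
  linarith

end defs

variable {I E : Type*}

/-- Only the active blocks from the start block on matter. -/
theorem LstW_cut (D : ℕ → I → E → ℝ) (cap : ℝ) (a b : I → E → ℝ) (o len h : ℕ)
    (act : ℕ → Prop) [DecidablePred act] {jc j1 : ℕ} (hj : jc ≤ j1) (t : ℕ) :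
    LstW D cap a b o len h (fun j => act j ∧ jc ≤ j) j1 t =
      LstW D cap a b o len h act j1 t := by
  have hset : hist o len h (fun j => act j ∧ jc ≤ j) j1 t = hist o len h act j1 t := by
    unfold hist
    refine Finset.filter_congr fun t' _ => ?_
    constructor
    · rintro ⟨a, b, c⟩
      refine ⟨a, b, ?_⟩
      rcases c with ⟨c1, c2, _⟩ | c
      · exact Or.inl ⟨c1, c2⟩
      · exact Or.inr c
    · rintro ⟨a, b, c⟩
      refine ⟨a, b, ?_⟩
      rcases c with ⟨c1, c2⟩ | c
      · exact Or.inl ⟨c1, c2, hj.trans c1⟩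
      · exact Or.inr c
  unfold LstW
  rw [hset]

variable [Fintype I] [Fintype E] [DecidableEq E] [Nonempty I] [Nonempty E]
variable {Un : Type*} [Fintype Un] [Nonempty Un]

/-- **The weighted machine inequality of one region**, one scale, one class, one offset. `em u` =
row of the unit `u` in the graph of the machine, `w u` = mass of the unit, `r u` = rounding error
of a good unit, `rt` = total rounding error of the route, `gd` = good units. -/
theorem region_h3bW {em : Un → I} (hem : Function.Injective em) {PP : Set (I → E)}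
    {a b : I → E → ℝ} (ha : ∀ i e, 0 < a i e) {Am : ℝ} (haA : ∀ i e, a i e ≤ Am)
    {D : ℕ → I → E → ℝ} (hD : ∀ t i e, D (t + 1) i e ≤ D t i e)
    {cU : ℕ → Un → ℝ} (hcUa : ∀ u, Antitone fun t => cU t u) {cR : ℕ → ℝ} {DU w : Un → ℝ}
    (hw : ∀ u, 0 < w u) {ε d rb rt : ℝ} {r : Un → ℝ} (hε : 0 ≤ ε) (hr0 : ∀ u, 0 ≤ r u)
    (hd : 0 ≤ d) (hrt : 0 ≤ rt) (hrb : ∑ u, r u ≤ (∑ u, w u) * rb)
    (lowU : ∀ t u, DU u - ε * w u ≤ cU t u)
    (lowR : ∀ t, ∑ u, DU u - ε * ∑ u, w u ≤ cR t)
    (H1 : ∀ t, cR t ≤ ∑ u, cU t u)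
    {p : I → E} (hp : p ∈ PP)
    (hsum : ∀ t, ∑ i, D t i (p i) ≤ ∑ u, cU t u + (∑ u, w u) * rt) {gd : Un → Prop}
    (hr : ∀ t u, gd u → |D t (em u) (p (em u)) - cU t u| ≤ r u)
    {cap cN : ℝ} (hcap0 : 0 < cap)
    (hcap : ∀ u, gd u → w u * (cN + ε) + 2 * r u ≤ cap * a (em u) (p (em u)))
    {o len h : ℕ} (hh : 0 < h) (hhl : h ≤ len) {act A : ℕ → Prop} [DecidablePred act]
    [DecidablePred A] {jc : ℕ} (hA : ∀ j, A j → act j) (hAc : ∀ j, A j → jc ≤ j) {N : ℕ}
    (hAo : ∀ j, A j → o ≤ j * len) {T s : ℕ} (hs : 0 < s) (hsT : s < T) {η : ℝ} (hη : 0 ≤ η)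
    {pk : ℕ → ℕ → ℕ → I → E}
    (hpk : ∀ j1 t, blk o len t < N → win o len h t → A (blk o len t) → act j1 → jc ≤ j1 →
      j1 ≤ blk o len t →
      GreedyW a (LstW D cap a b o len h act j1 t) PP T ((Fintype.card I : ℝ) * η) (pk j1 t))
    (cert : ∀ j1 t, blk o len t < N → win o len h t → A (blk o len t) → act j1 → jc ≤ j1 →
      j1 ≤ blk o len t → cR t ≤ val (D (t + h)) (xx (pk j1 t) T) + (∑ u, w u) * d)
    {phi : ℝ} (hphi : Phi0 a b p ≤ (Fintype.card I : ℝ) * phi) :
    ∑ j ∈ (range N).filter A, lhsEW DU w gd cN cU h len (j * len - o) ≤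
      2 * ∑ j ∈ (range N).filter A, ∑ i ∈ range len,
        (VW DU w (cU (j * len - o + i)) - eW DU w (cR (j * len - o + i)))
      + (1 + (((range N).filter fun j => (act j ∧ jc ≤ j) ∧ ¬ A j).card : ℝ))
        * (h * ((Fintype.card I : ℝ) * cap / (∑ u, w u) * phi))
      + (((range N).filter A).card : ℝ) * (len * (2 * ε + 2 * rt + 2 * rb + 2 * d
          + (Fintype.card I : ℝ) * cap / (∑ u, w u) *
            (Am * errW (Fintype.card E) T s + (T / s + 1) * η
              + 3 * (Am * (Fintype.card E / T))))) := by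
  classical
  have hcI : (0 : ℝ) < (Fintype.card I : ℝ) := by exact_mod_cast Fintype.card_pos
  have hW : 0 < ∑ u, w u := Finset.sum_pos (fun u _ => hw u) univ_nonempty
  have hV : ∀ t, 0 ≤ VW DU w (cU t) - eW DU w (cR t) := fun t =>
    sub_nonneg.2 (eW_le_VW hw (H1 t))
  have hrb0 : 0 ≤ rb := by
    have h1 : 0 ≤ (∑ u, w u) * rb := (Finset.sum_nonneg fun u _ => hr0 u).trans hrb
    exact nonneg_of_mul_nonneg_right h1 hW
  obtain ⟨er, her⟩ : ∃ er, er = Am * errW (Fintype.card E) T s + (T / s + 1) * η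
            + 3 * (Am * (Fintype.card E / T)) := ⟨_, rfl⟩
  rw [← her]
  have hlow := fun t => sum_sub_leW (cU := cU t) hw hε (lowR t)
  obtain ⟨W, hWdef⟩ : ∃ W, W = ∑ u, w u := ⟨_, rfl⟩
  simp only [← hWdef] at hW hrb hsum cert hlow ⊢
  have hmain := H519.h3b_startW (act := fun j => act j ∧ jc ≤ j) (A := A) ha haA hD hcap0 hh hhl
    (fun j hj => ⟨hA j hj, hAc j hj⟩) (N := N) hAo hs hsT hη
    (fun j1 t h1 h2 h3 h4 h5 => by
      rw [LstW_cut D cap a b o len h act h4.2]
      exact hpk j1 t h1 h2 h3 h4.1 h4.2 h5)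
    hp hphi (G := fun t => W * (VW DU w (cU t) - eW DU w (cR t)) / (Fintype.card I : ℝ))
    (fun t => div_nonneg (mul_nonneg hW.le (hV t)) hcI.le)
    (del := (W * ε + W * rt + W * d) / (Fintype.card I : ℝ)) (by positivity)
    (fun j1 t h1 h2 h3 h4 h5 => by
      have hc := cert j1 t h1 h2 h3 h4.1 h4.2 h5
      have hp1 := hsum t
      have hs := hlow t
      rw [← add_div]
      refine div_le_div_of_nonneg_right ?_ hcI.le
      unfold pv
      linarith)
  rw [← her] at hmain
  -- the left side
  have hlhs : ∀ j ∈ (range N).filter A, lhsEW DU w gd cN cU h len (j * len - o) ≤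
      (Fintype.card I : ℝ) * lhsW D p a cap h len (j * len - o) / W + len * (2 * rb) := by
    intro j _
    set b0 := j * len - o with hb0
    unfold lhsEW lhsW
    rw [mul_div_cancel₀ _ hcI.ne', ← hWdef]
    have hterm : ∀ i ∈ range (len + 1 - h),
        (∑ u, w u * ((nx (DU u) (w u) (cU (b0 + i) u) - nx (DU u) (w u) (cU (b0 + i + h) u)) *
          ind (nx (DU u) (w u) (cU b0 u) - nx (DU u) (w u) (cU (b0 + len) u) ≤ cN ∧ gd u))) / W ≤
        (∑ i', (if D b0 i' (p i') - D (b0 + len) i' (p i') ≤ cap * a i' (p i') then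
          D (b0 + i) i' (p i') - D (b0 + i + h) i' (p i') else 0)) / W + 2 * rb := by
      intro i hi
      have hi' := Finset.mem_range.1 hi
      have hDn : ∀ i' : I, 0 ≤ (if D b0 i' (p i') - D (b0 + len) i' (p i') ≤ cap * a i' (p i')
          then D (b0 + i) i' (p i') - D (b0 + i + h) i' (p i') else 0) := by
        intro i'
        split_ifs
        · have := H519.anti_nat hD i' (p i') (b0 + i) h
          linarith
        · exact le_rfl
      have hunit : ∀ u : Un, w u * ((nx (DU u) (w u) (cU (b0 + i) u) -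
          nx (DU u) (w u) (cU (b0 + i + h) u)) *
          ind (nx (DU u) (w u) (cU b0 u) - nx (DU u) (w u) (cU (b0 + len) u) ≤ cN ∧ gd u)) ≤
          (if D b0 (em u) (p (em u)) - D (b0 + len) (em u) (p (em u)) ≤
              cap * a (em u) (p (em u)) then
            D (b0 + i) (em u) (p (em u)) - D (b0 + i + h) (em u) (p (em u)) else 0) +
              2 * r u := by
        intro u
        have hwu := hw u
        have hanti : cU (b0 + i + h) u ≤ cU (b0 + i) u := hcUa u (by omega)
        have hr0' := hr0 u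
        by_cases hc : nx (DU u) (w u) (cU b0 u) - nx (DU u) (w u) (cU (b0 + len) u) ≤ cN ∧ gd u
        · rw [Acc.ind_true hc, mul_one]
          obtain ⟨hc1, hg⟩ := hc
          have hdrop : D b0 (em u) (p (em u)) - D (b0 + len) (em u) (p (em u)) ≤
              cap * a (em u) (p (em u)) := by
            have h1 := sub_le_nx (c := cU b0 u) hwu hε (lowU (b0 + len) u)
            have h2 := (abs_le.1 (hr b0 u hg)).2
            have h3 := (abs_le.1 (hr (b0 + len) u hg)).1
            have h4 : w u * (nx (DU u) (w u) (cU b0 u) -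
                nx (DU u) (w u) (cU (b0 + len) u) + ε) ≤ w u * (cN + ε) :=
              mul_le_mul_of_nonneg_left (by linarith) hwu.le
            have h5 := hcap u hg
            linarith
          rw [if_pos hdrop]
          have h1 := nx_sub_le (D := DU u) hwu hanti
          rw [le_div_iff₀ hwu] at h1
          have h2 := (abs_le.1 (hr (b0 + i) u hg)).1
          have h3 := (abs_le.1 (hr (b0 + i + h) u hg)).2
          linarith
        · rw [Acc.ind_false hc, mul_zero, mul_zero]
          have := hDn (em u)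
          linarith
      have hsum' := Finset.sum_le_sum fun u (_ : u ∈ (univ : Finset Un)) => hunit u
      rw [Finset.sum_add_distrib, ← Finset.mul_sum] at hsum'
      have e1 : ∑ u, (if D b0 (em u) (p (em u)) - D (b0 + len) (em u) (p (em u)) ≤
              cap * a (em u) (p (em u)) then
            D (b0 + i) (em u) (p (em u)) - D (b0 + i + h) (em u) (p (em u)) else 0) ≤
          ∑ i', (if D b0 i' (p i') - D (b0 + len) i' (p i') ≤ cap * a i' (p i') then
          D (b0 + i) i' (p i') - D (b0 + i + h) i' (p i') else 0) := by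
        rw [← Finset.sum_image (s := (univ : Finset Un)) (g := em)
          (f := fun i' => (if D b0 i' (p i') - D (b0 + len) i' (p i') ≤ cap * a i' (p i') then
          D (b0 + i) i' (p i') - D (b0 + i + h) i' (p i') else 0))
          (fun a _ b _ hab => hem hab)]
        exact Finset.sum_le_sum_of_subset_of_nonneg (Finset.subset_univ _) fun i' _ _ => hDn i'
      have e2 : 2 * rb = 2 * (W * rb) / W := by field_simp
      rw [e2, ← add_div]
      refine div_le_div_of_nonneg_right ?_ hW.le
      linarith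
    refine (Finset.sum_le_sum hterm).trans ?_
    rw [Finset.sum_add_distrib, Finset.sum_const, Finset.card_range, nsmul_eq_mul,
      ← Finset.sum_div]
    have hl : ((len + 1 - h : ℕ) : ℝ) ≤ (len : ℝ) := by
      exact_mod_cast (by omega : len + 1 - h ≤ len)
    have h7 := mul_le_mul_of_nonneg_right hl (show 0 ≤ 2 * rb by positivity)
    linarith
  refine (Finset.sum_le_sum hlhs).trans ?_
  rw [Finset.sum_add_distrib, Finset.sum_const, nsmul_eq_mul, ← Finset.sum_div,
    ← Finset.mul_sum]
  have hm2 := div_le_div_of_nonneg_right (mul_le_mul_of_nonneg_left hmain hcI.le) hW.le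
  refine (add_le_add hm2 le_rfl).trans (le_of_eq ?_)
  simp only [← Finset.sum_div, ← Finset.mul_sum]
  generalize (∑ j ∈ (range N).filter A, ∑ i ∈ range len,
    (VW DU w (cU (j * len - o + i)) - eW DU w (cR (j * len - o + i)))) = SG
  field_simp
  ring

end Vale.Agent.P315.H638
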