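import Vale.Agent.P315.H155.MachW

/-!
P315, milestone 2 (helper638): the comparison path of a region on the nodes of a weighted machine
(end rows included), pure geometry.

`z u` = position of the comparison path before the unit row `u`, `xs u` = label used in the unit row
`u`, `η = Z / g` = distance of the positions of the nodes. The node path starts at the coarse node
below `z 0`, goes through the nodes below `z 0, …, z K` (the node with number `u + 2` carries the
label `xs u`) and ends at the coarse node below `z K`.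
-/

set_option autoImplicit false

open Finset

namespace Vale.Agent.P315.H638

open H155 H801

/-- Geometry of one region. -/
structure NetW (K Z g μ B lo η : ℕ) (LB : List ℕ) (z xs : ℕ → ℕ) : Prop where
  hK : 0 < K
  hg : 0 < g
  hη : 0 < η
  hμ : 0 < μ
  hZ : Z = g * η
  hμη : μ ∣ η
  hμlo : μ ∣ lo
  lo_le : ∀ u, u ≤ K → lo ≤ z u
  le_up : ∀ u, u ≤ K → z u ≤ lo + 2 * (K * Z)
  le_B : ∀ u, u ≤ K → z u ≤ B
  mem : ∀ u, u < K → xs u ∈ LB

/-- Number of the position below `x`. -/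
def ndW (lo η x : ℕ) : ℕ := (x - lo) / η

/-- Number of the coarse position below `x`. -/
def cnW (K lo η x : ℕ) : ℕ := (x - lo) / (K * η)

/-- The nodes of the comparison path. -/
def FW (K g lo η : ℕ) (LB : List ℕ) (z xs : ℕ → ℕ) (i : ℕ) : ℕ :=
  if i = 0 then cnW K lo η (z 0) * K
  else if i = 1 then ndW lo η (z 0)
  else if i ≤ K + 1 then nodeOf K g (ndW lo η (z (i - 1))) (LB.idxOf (xs (i - 2)))
  else cnW K lo η (z K) * K

namespace NetW

variable {K Z g μ B lo η : ℕ} {LB : List ℕ} {z xs : ℕ → ℕ} (N : NetW K Z g μ B lo η LB z xs)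
include N

theorem ne : LB ≠ [] := fun h => by
  have := N.mem 0 N.hK
  rw [h] at this
  exact List.not_mem_nil this

theorem posN_eq {x : ℕ} (h : lo + x * η ≤ B) : posN μ B lo Z g x = lo + x * η := by
  unfold posN
  have h1 : x * Z / g = x * η := by
    rw [N.hZ, show x * (g * η) = g * (x * η) by ring, Nat.mul_div_cancel_left _ N.hg]
  rw [h1]
  have h2 : μ ∣ lo + x * η := dvd_add N.hμlo (Dvd.dvd.mul_left N.hμη _)
  rw [Nat.min_eq_left (Nat.div_le_div_right h), Nat.mul_div_cancel' h2]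

theorem nd_le {u : ℕ} (hu : u ≤ K) :
    lo + ndW lo η (z u) * η ≤ z u ∧ z u < lo + ndW lo η (z u) * η + η := by
  unfold ndW
  have h1 := N.lo_le u hu
  have h2 := Nat.div_add_mod' (z u - lo) η
  have h3 := Nat.mod_lt (z u - lo) N.hη
  omega

theorem cn_le {u : ℕ} (hu : u ≤ K) :
    lo + cnW K lo η (z u) * K * η ≤ z u ∧ z u < lo + cnW K lo η (z u) * K * η + K * η := by
  unfold cnW
  have h1 := N.lo_le u hu
  have h2 := Nat.div_add_mod' (z u - lo) (K * η)
  have h3 := Nat.mod_lt (z u - lo) (Nat.mul_pos N.hK N.hη)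
  rw [mul_assoc]
  omega

theorem nd_num {u : ℕ} (hu : u ≤ K) : ndW lo η (z u) ≤ 2 * K * g := by
  unfold ndW
  have h1 := N.le_up u hu
  have h3 : 2 * K * g * η = 2 * (K * Z) := by rw [N.hZ]; ring
  calc (z u - lo) / η ≤ (2 * K * g * η) / η := Nat.div_le_div_right (by omega)
    _ = 2 * K * g := Nat.mul_div_cancel _ N.hη

theorem cn_num {u : ℕ} (hu : u ≤ K) : cnW K lo η (z u) ≤ 2 * g := by
  unfold cnW
  have h1 := N.le_up u hu
  have h3 : 2 * g * (K * η) = 2 * (K * Z) := by rw [N.hZ]; ring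
  calc (z u - lo) / (K * η) ≤ (2 * g * (K * η)) / (K * η) := Nat.div_le_div_right (by omega)
    _ = 2 * g := Nat.mul_div_cancel _ (Nat.mul_pos N.hK N.hη)

omit N in
theorem FW_zero : FW K g lo η LB z xs 0 = cnW K lo η (z 0) * K := by simp [FW]

omit N in
theorem FW_one : FW K g lo η LB z xs 1 = ndW lo η (z 0) := by simp [FW]

omit N in
theorem FW_last : FW K g lo η LB z xs (K + 2) = cnW K lo η (z K) * K := by simp [FW]

omit N in
theorem FW_mid {u : ℕ} (hu : u < K) : FW K g lo η LB z xs (u + 2) =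
    nodeOf K g (ndW lo η (z (u + 1))) (LB.idxOf (xs u)) := by
  unfold FW
  rw [if_neg (by omega), if_neg (by omega), if_pos (by omega)]
  rfl

theorem idx_lt {u : ℕ} (hu : u < K) : LB.idxOf (xs u) < LB.length :=
  List.idxOf_lt_length_iff.2 (N.mem u hu)

theorem FW_lt (i : ℕ) : FW K g lo η LB z xs i < pW K g LB := by
  have h0 := le_pW (K := K) (g := g) N.ne
  unfold FW
  split_ifs with h1 h2 h3
  · have := Nat.mul_le_mul_right K (N.cn_num (Nat.zero_le _))
    have h3 : 2 * K * g = 2 * g * K := by ring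
    omega
  · have := N.nd_num (Nat.zero_le _)
    omega
  · exact nodeOf_lt (N.nd_num (by omega)) (N.idx_lt (by omega))
  · have := Nat.mul_le_mul_right K (N.cn_num (u := K) le_rfl)
    have h3 : 2 * K * g = 2 * g * K := by ring
    omega

omit N in
theorem pos_of_lt {n : ℕ} (h : n < 2 * K * g + 1) : posX K Z g μ B lo n = posN μ B lo Z g n := by
  unfold posX
  rw [Nat.mod_eq_of_lt h]

/-- Positions of the middle nodes. -/
theorem pos_mid {u : ℕ} (hu : u ≤ K) : posX K Z g μ B lo (FW K g lo η LB z xs (u + 1)) =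
    lo + ndW lo η (z u) * η := by
  rcases Nat.eq_zero_or_pos u with rfl | h
  · rw [FW_one, pos_of_lt (by have := N.nd_num (Nat.zero_le K); omega)]
    exact N.posN_eq ((N.nd_le hu).1.trans (N.le_B _ hu))
  · obtain ⟨v, rfl⟩ : ∃ v, u = v + 1 := ⟨u - 1, by omega⟩
    rw [FW_mid (by omega), posX_nodeOf (N.nd_num hu)]
    exact N.posN_eq ((N.nd_le hu).1.trans (N.le_B _ hu))

theorem pos_zero : posX K Z g μ B lo (FW K g lo η LB z xs 0) =
    lo + cnW K lo η (z 0) * K * η := by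
  have h := Nat.mul_le_mul_right K (N.cn_num (Nat.zero_le K))
  have h3 : 2 * K * g = 2 * g * K := by ring
  rw [FW_zero, pos_of_lt (by omega)]
  exact N.posN_eq ((N.cn_le (Nat.zero_le _)).1.trans (N.le_B _ (Nat.zero_le _)))

theorem pos_last : posX K Z g μ B lo (FW K g lo η LB z xs (K + 2)) =
    lo + cnW K lo η (z K) * K * η := by
  have h := Nat.mul_le_mul_right K (N.cn_num (u := K) le_rfl)
  have h3 : 2 * K * g = 2 * g * K := by ring
  rw [FW_last, pos_of_lt (by omega)]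
  exact N.posN_eq ((N.cn_le le_rfl).1.trans (N.le_B _ le_rfl))

/-- The label of the target node of the unit row `u`. -/
theorem lab_mid {u : ℕ} (hu : u < K) : labX K g LB (FW K g lo η LB z xs (u + 2)) = xs u := by
  rw [FW_mid hu, labX_nodeOf (N.nd_num (by omega)) (N.idx_lt hu)]
  exact List.getElem_idxOf _

theorem dist_mid {u : ℕ} (hu : u ≤ K) :
    Nat.dist (posX K Z g μ B lo (FW K g lo η LB z xs (u + 1))) (z u) ≤ η := by
  rw [N.pos_mid hu]
  obtain ⟨h1, h2⟩ := N.nd_le hu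
  unfold Nat.dist
  omega

theorem dist_zero : Nat.dist (posX K Z g μ B lo (FW K g lo η LB z xs 0)) (z 0) ≤ K * η := by
  rw [N.pos_zero]
  obtain ⟨h1, h2⟩ := N.cn_le (Nat.zero_le K)
  unfold Nat.dist
  omega

theorem dist_last : Nat.dist (posX K Z g μ B lo (FW K g lo η LB z xs (K + 2))) (z K) ≤ K * η := by
  rw [N.pos_last]
  obtain ⟨h1, h2⟩ := N.cn_le (u := K) le_rfl
  unfold Nat.dist
  omega

/-! ### Costs -/

/-- The first row. -/
theorem first_row (D : ℕ → ℕ → ℕ → ℕ → ℕ → ℕ) (κ : ℕ) :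
    nodeW K Z g μ B lo LB D κ 0 (FW K g lo η LB z xs 0) (FW K g lo η LB z xs 1) ≤
      2 * (K * η) := by
  unfold nodeW
  have h0 := N.pos_mid (u := 0) (Nat.zero_le _)
  rw [Nat.zero_add] at h0
  rw [if_neg (by omega), N.pos_zero, h0]
  obtain ⟨h1, h2⟩ := N.nd_le (u := 0) (Nat.zero_le _)
  obtain ⟨h3, h4⟩ := N.cn_le (u := 0) (Nat.zero_le _)
  have h5 : η ≤ K * η := Nat.le_mul_of_pos_left _ N.hK
  omega

/-- The last row. -/
theorem last_row (D : ℕ → ℕ → ℕ → ℕ → ℕ → ℕ) (κ : ℕ) :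
    nodeW K Z g μ B lo LB D κ (K + 1) (FW K g lo η LB z xs (K + 1))
      (FW K g lo η LB z xs (K + 2)) ≤ 2 * (K * η) := by
  unfold nodeW
  rw [if_neg (by omega), N.pos_last, N.pos_mid (u := K) le_rfl]
  obtain ⟨h1, h2⟩ := N.nd_le (u := K) le_rfl
  obtain ⟨h3, h4⟩ := N.cn_le (u := K) le_rfl
  have h5 : η ≤ K * η := Nat.le_mul_of_pos_left _ N.hK
  omega

/-- The unit rows, exact form. -/
theorem unit_eq (D : ℕ → ℕ → ℕ → ℕ → ℕ → ℕ) (κ : ℕ) {u : ℕ} (hu : u < K) :
    nodeW K Z g μ B lo LB D κ (u + 1) (FW K g lo η LB z xs (u + 1))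
        (FW K g lo η LB z xs (u + 2)) =
      D κ u (xs u) (posX K Z g μ B lo (FW K g lo η LB z xs (u + 1)))
        (posX K Z g μ B lo (FW K g lo η LB z xs (u + 2))) := by
  unfold nodeW
  rw [if_pos ⟨by omega, by omega⟩, Nat.add_sub_cancel, N.lab_mid hu]

/-- The unit rows, upper bound. -/
theorem unit_row_le {D : ℕ → ℕ → ℕ → ℕ → ℕ → ℕ}
    (lip : ∀ κ u x p p' q q', D κ u x p q ≤
      2 * Nat.dist p p' + D κ u x p' q' + 2 * Nat.dist q' q) (κ : ℕ) {u : ℕ} (hu : u < K) :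
    nodeW K Z g μ B lo LB D κ (u + 1) (FW K g lo η LB z xs (u + 1))
        (FW K g lo η LB z xs (u + 2)) ≤ D κ u (xs u) (z u) (z (u + 1)) + 4 * η := by
  rw [N.unit_eq D κ hu]
  have h1 := lip κ u (xs u) (posX K Z g μ B lo (FW K g lo η LB z xs (u + 1))) (z u)
    (posX K Z g μ B lo (FW K g lo η LB z xs (u + 2))) (z (u + 1))
  have h2 := N.dist_mid (u := u) hu.le
  have h3 := N.dist_mid (u := u + 1) hu
  rw [Nat.dist_comm] at h3
  have h4 : FW K g lo η LB z xs (u + 1 + 1) = FW K g lo η LB z xs (u + 2) := rfl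
  rw [h4] at h3
  omega

/-- The unit rows, lower bound. -/
theorem le_unit_row {D : ℕ → ℕ → ℕ → ℕ → ℕ → ℕ}
    (lip : ∀ κ u x p p' q q', D κ u x p q ≤
      2 * Nat.dist p p' + D κ u x p' q' + 2 * Nat.dist q' q) (κ : ℕ) {u : ℕ} (hu : u < K) :
    D κ u (xs u) (z u) (z (u + 1)) ≤
      nodeW K Z g μ B lo LB D κ (u + 1) (FW K g lo η LB z xs (u + 1))
        (FW K g lo η LB z xs (u + 2)) + 4 * η := by
  rw [N.unit_eq D κ hu]
  have h1 := lip κ u (xs u) (z u) (posX K Z g μ B lo (FW K g lo η LB z xs (u + 1)))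
    (z (u + 1)) (posX K Z g μ B lo (FW K g lo η LB z xs (u + 2)))
  have h2 := N.dist_mid (u := u) hu.le
  have h3 := N.dist_mid (u := u + 1) hu
  rw [Nat.dist_comm] at h2
  have h4 : FW K g lo η LB z xs (u + 1 + 1) = FW K g lo η LB z xs (u + 2) := rfl
  rw [h4] at h3
  omega

/-- **The unit rows.** -/
theorem unit_close {D : ℕ → ℕ → ℕ → ℕ → ℕ → ℕ}
    (lip : ∀ κ u x p p' q q', D κ u x p q ≤
      2 * Nat.dist p p' + D κ u x p' q' + 2 * Nat.dist q' q) (κ : ℕ) {u : ℕ} (hu : u < K) :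
    |(nodeW K Z g μ B lo LB D κ (u + 1) (FW K g lo η LB z xs (u + 1))
        (FW K g lo η LB z xs (u + 2)) : ℝ) - D κ u (xs u) (z u) (z (u + 1))| ≤ 4 * η := by
  have h1 : (nodeW K Z g μ B lo LB D κ (u + 1) (FW K g lo η LB z xs (u + 1))
        (FW K g lo η LB z xs (u + 2)) : ℝ) ≤ D κ u (xs u) (z u) (z (u + 1)) + 4 * η := by
    exact_mod_cast N.unit_row_le lip κ hu
  have h2 : (D κ u (xs u) (z u) (z (u + 1)) : ℝ) ≤
      nodeW K Z g μ B lo LB D κ (u + 1) (FW K g lo η LB z xs (u + 1))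
        (FW K g lo η LB z xs (u + 2)) + 4 * η := by
    exact_mod_cast N.le_unit_row lip κ hu
  rw [abs_le]
  constructor <;> linarith

/-- The comparison path on the edges. -/
def pp (i : Fin (K + 2)) : Fin (pW K g LB) × Fin (pW K g LB) :=
  (⟨FW K g lo η LB z xs i, N.FW_lt i⟩, ⟨FW K g lo η LB z xs (i + 1), N.FW_lt (i + 1)⟩)

theorem pp_mem : pp N ∈ H763.paths (K + 2) (pW K g LB)
    (cnW K lo η (z 0) * K) (cnW K lo η (z K) * K) :=
  ⟨FW K g lo η LB z xs, FW_zero, FW_last, fun _ => ⟨rfl, rfl⟩⟩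

end NetW

end Vale.Agent.P315.H638
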