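import Vale.Agent.P315.H638.NetW
import Vale.Agent.P315.H763.LabList
import Vale.Agent.P315.H869.PathSum
import Vale.Agent.P315.H838.Unit
import Vale.Agent.P315.H846.Mk
import Vale.Agent.P315.H95.Glue
import Vale.Agent.P315.C.StructRd

/-!
P315, milestone 2 (helper638): the comparison route `P'` of a top for the machines with edge
weights.

Top = slab `i` of level `j + 2 ^ s < n`, `a` = its label, units = slabs `i K + u`, `u < K`,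
`K = (2 ^ m) ^ 2 ^ s`, of level `j`. The route uses the labels `xs u` (the label of the unit, unless
the unit is light) and the mesh positions below the positions of the path.

* `exists_routeW` : labels `xs` and the geometry `NetW`.
* `RouteW.unit` : good unit rows, error `4 (Z / g)`.
* `RouteW.light` : all unit rows cost at most the unit plus its mass plus `4 (Z / g)`.
* `RouteW.sum_le` : cost of the whole route, error `rt = 64 / g + 8 / K ^ 3` of the mass.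
-/

set_option autoImplicit false

open Finset

namespace Vale.Agent.P315.H638

open Vale.Agent.P315.C
open Vale.Agent.P315.H95 (cl bx ac wd lab mass InBox PathOK clsPar)
open Vale.Agent.P315.H808 (Chain Along)
open Vale.Agent.P315.H846 (Inst2)
open Vale.Agent.P315.H869.Units (Light wt)
open Vale.Agent.P315.H763 (labL)
open Vale.Agent.P315.H155 (nodeW pW posX labX)

variable {m ℓ μ B w0 J S H Kc D1 n κr : ℕ} {vis hid : Leaf} {S0 : ℕ → ℕ}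
  {Ch : Chain (clsPar m ℓ μ B w0 J S H (Kc + 3) D1) vis hid n}

/-! ### Facts on the chain of an instance -/

section inst

variable (hI : Inst2 (clsPar m ℓ μ B w0 J S H (Kc + 3) D1) m w0 Kc κr vis hid n S0 Ch)

include hI

theorem Inst2.hE : ∃ p q, H140.Ed (clsPar m ℓ μ B w0 J S H (Kc + 3) D1) p q := by
  obtain ⟨p, h1, h2, h3⟩ := hI.pt
  exact ⟨p, p, h1, h1, h2, h2, h3⟩

theorem Inst2.hle : HidLe (clsPar m ℓ μ B w0 J S H (Kc + 3) D1) vis hid :=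
  fun i p q h => hI.hid_le i p q h.2.2.2.2

theorem Inst2.penAdd : Ch.PenAdd := by
  intro e j i hj _
  rw [hI.lab, hI.lab, hI.lab]
  obtain ⟨h1, h2⟩ := H95.ac_lab_chain (m := m) (w0 := w0) (S0 := S0) (pos := Ch.pos) (κr := κr)
    (i := i) hj
  exact H95.pen_arith D1 _ _ _ h1 h2

omit hI in
theorem Inst2.pen_self (j a : ℕ) : (clsPar m ℓ μ B w0 J S H (Kc + 3) D1).pen j 0 a a = 0 := by
  show D1 * (ac a - ac a) = 0
  simp

/-- The mass of a slab. -/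
theorem Inst2.W_eq (mc : Mach) (ω : Rnd) (j i : ℕ) :
    (Ch.along mc ω hI.pt hI.hid_le).W j i = mass m S0 j i := by
  show H808.bs (2 ^ m) Ch.w j i = _
  unfold H808.bs mass
  rw [Nat.cast_sum]
  exact sum_congr rfl fun r _ => hI.w _

/-- The certified cost along the path is at least the true one, for all read sets. -/
theorem Inst2.DE_le_cval (mc : Mach) (ω : Rnd) (R : Finset (ℕ × ℕ)) {j k : ℕ} (hj : j ≤ n)
    (hk : k < (2 ^ m) ^ (n - j)) :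
    (Ch.along mc ω hI.pt hI.hid_le).DE j k ≤
      (cval (clsPar m ℓ μ B w0 J S H (Kc + 3) D1) vis hid R j k (Ch.pos (k * (2 ^ m) ^ j))
        (Ch.pos ((k + 1) * (2 ^ m) ^ j)) : ℝ) := by
  have h := hI.lower R j k hj hk
  refine le_trans (le_of_eq ?_) h
  show H808.bs (2 ^ m) (fun r => Ch.d r + 0) j k = _
  unfold H808.bs
  simp only [add_zero]
  rfl

theorem Inst2.DE_le_C (mc : Mach) (ω : Rnd) {j k : ℕ} (hj : j ≤ n)
    (hk : k < (2 ^ m) ^ (n - j)) (b : ℤ) :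
    (Ch.along mc ω hI.pt hI.hid_le).DE j k ≤ (Ch.along mc ω hI.pt hI.hid_le).C j k b :=
  Inst2.DE_le_cval hI mc ω _ hj hk

/-- The certified cost along the path is at most the true one plus the mass, for all read sets. -/
theorem Inst2.cval_le_DEW (mc : Mach) (ω : Rnd) (R : Finset (ℕ × ℕ)) {j k : ℕ} (hj : j ≤ n)
    (hk : k < (2 ^ m) ^ (n - j)) :
    (cval (clsPar m ℓ μ B w0 J S H (Kc + 3) D1) vis hid R j k (Ch.pos (k * (2 ^ m) ^ j))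
        (Ch.pos ((k + 1) * (2 ^ m) ^ j)) : ℝ) ≤
      (Ch.along mc ω hI.pt hI.hid_le).DE j k + (Ch.along mc ω hI.pt hI.hid_le).W j k := by
  have h1 := H808.best_sum' (clsPar m ℓ μ B w0 J S H (Kc + 3) D1)
    (known (clsPar m ℓ μ B w0 J S H (Kc + 3) D1) vis hid R) (k * (2 ^ m) ^ j) 1 ((2 ^ m) ^ j)
    (fun r => Ch.pos (k * (2 ^ m) ^ j + r)) hI.pt
  have e1 : k * (2 ^ m) ^ j + (2 ^ m) ^ j = (k + 1) * (2 ^ m) ^ j := by ring
  rw [mul_one, e1] at h1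
  have h2 : (cval (clsPar m ℓ μ B w0 J S H (Kc + 3) D1) vis hid R j k (Ch.pos (k * (2 ^ m) ^ j))
        (Ch.pos ((k + 1) * (2 ^ m) ^ j)) : ℝ) ≤
      ∑ r ∈ range ((2 ^ m) ^ j), (best (clsPar m ℓ μ B w0 J S H (Kc + 3) D1)
        (known (clsPar m ℓ μ B w0 J S H (Kc + 3) D1) vis hid R) (k * (2 ^ m) ^ j + r * 1) 1
        (Ch.pos (k * (2 ^ m) ^ j + r)) (Ch.pos (k * (2 ^ m) ^ j + (r + 1))) : ℝ) := by
    exact_mod_cast h1
  refine h2.trans ?_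
  have e2 : (Ch.along mc ω hI.pt hI.hid_le).DE j k + (Ch.along mc ω hI.pt hI.hid_le).W j k =
      ∑ r ∈ range ((2 ^ m) ^ j), (Ch.d (k * (2 ^ m) ^ j + r) + Ch.w (k * (2 ^ m) ^ j + r)) := by
    show H808.bs (2 ^ m) (fun r => Ch.d r + 0) j k + H808.bs (2 ^ m) Ch.w j k = _
    unfold H808.bs
    rw [← sum_add_distrib]
    simp only [add_zero]
  rw [e2]
  refine sum_le_sum fun r hr => ?_
  rw [mul_one]
  refine Ch.free _ ?_ R
  have hr' := mem_range.1 hr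
  show k * (2 ^ m) ^ j + r < (2 ^ m) ^ n
  calc k * (2 ^ m) ^ j + r < k * (2 ^ m) ^ j + (2 ^ m) ^ j := by omega
    _ = (k + 1) * (2 ^ m) ^ j := by ring
    _ ≤ (2 ^ m) ^ (n - j) * (2 ^ m) ^ j := Nat.mul_le_mul_right _ hk
    _ = (2 ^ m) ^ n := by rw [← pow_add, Nat.sub_add_cancel hj]

end inst

/-! ### The route -/

/-- Positions of the path before the unit rows of the top `i` of level `j + 2 ^ s`. -/
abbrev zT (Ch : Chain (clsPar m ℓ μ B w0 J S H (Kc + 3) D1) vis hid n) (s j i u : ℕ) : ℕ :=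
  Ch.pos ((i * (2 ^ m) ^ 2 ^ s + u) * (2 ^ m) ^ j)

/-- Unit width of the machines at the top. -/
abbrev ZT (m w0 j a : ℕ) : ℕ := wd m w0 j (cl a)

/-- Lower end of the box of the top. -/
abbrev loT (m w0 s j a : ℕ) : ℕ := bx a * ((2 ^ m) ^ 2 ^ s * wd m w0 j (cl a))

/-- The unit `u` is light. -/
abbrev lightT (Ch : Chain (clsPar m ℓ μ B w0 J S H (Kc + 3) D1) vis hid n) (s j i u : ℕ) : Prop :=
  Light m (2 ^ s) (cl (Ch.lab (j + 2 ^ s) i)) (Ch.lab j (i * (2 ^ m) ^ 2 ^ s + u))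

/-- The route of the top `i` of level `j + 2 ^ s`. -/
structure RouteW (Ch : Chain (clsPar m ℓ μ B w0 J S H (Kc + 3) D1) vis hid n) (g s j i : ℕ)
    (xs : ℕ → ℕ) : Prop where
  net : NetW ((2 ^ m) ^ 2 ^ s) (ZT m w0 j (Ch.lab (j + 2 ^ s) i)) g μ B
    (loT m w0 s j (Ch.lab (j + 2 ^ s) i)) (ZT m w0 j (Ch.lab (j + 2 ^ s) i) / g)
    (labL m (Kc + 3) s (Ch.lab (j + 2 ^ s) i)) (zT Ch s j i) xs
  lab_eq : ∀ u, u < (2 ^ m) ^ 2 ^ s → ¬ lightT Ch s j i u →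
    xs u = Ch.lab j (i * (2 ^ m) ^ 2 ^ s + u)
  wt_eq : ∀ u, u < (2 ^ m) ^ 2 ^ s → wt (cl (Ch.lab (j + 2 ^ s) i)) (xs u) =
    wt (cl (Ch.lab (j + 2 ^ s) i)) (Ch.lab j (i * (2 ^ m) ^ 2 ^ s + u))
  cl_le : ∀ u, u < (2 ^ m) ^ 2 ^ s → cl (xs u) ≤ cl (Ch.lab (j + 2 ^ s) i) + 2 ^ s * m
  sum_wt : ∑ u ∈ range ((2 ^ m) ^ 2 ^ s), wt (cl (Ch.lab (j + 2 ^ s) i)) (xs u) ≤
    9 * (2 ^ m) ^ 2 ^ s
  sum_wt_cl : ∑ u ∈ range ((2 ^ m) ^ 2 ^ s), wt (cl (Ch.lab (j + 2 ^ s) i)) (xs u) *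
    (cl (xs u) - cl (Ch.lab (j + 2 ^ s) i)) ≤ 9 * (2 ^ m) ^ 2 ^ s * (2 ^ s * m)

section route

variable (hI : Inst2 (clsPar m ℓ μ B w0 J S H (Kc + 3) D1) m w0 Kc κr vis hid n S0 Ch)

include hI

/-- **(i)** The route exists. -/
theorem exists_routeW {g s j i : ℕ} (hj : j + 2 ^ s ≤ n)
    (hi : i < (2 ^ m) ^ (n - (j + 2 ^ s))) (hμ : 0 < μ) (hg : 0 < g) (hd : μ * g ∣ w0) :
    ∃ xs, RouteW Ch g s j i xs := by
  have hs : 0 < 2 ^ s := by positivity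
  have hM : 0 < (2 ^ m) ^ j := by positivity
  obtain ⟨xs, h1, h2, h3⟩ := H869.Units.exists_xs (ℓ := ℓ) (μ := μ) (B := B) (J := J) (S := S)
    (H := H) (D1 := D1) hI.path hs hj hi
  simp only [← hI.lab] at h1 h2 h3
  set a := Ch.lab (j + 2 ^ s) i with ha
  have hZ0 : 0 < wd m w0 j (cl a) := H95.wd_pos hI.path.w0_pos _ _
  obtain ⟨y, hy⟩ : μ * g ∣ wd m w0 j (cl a) := by
    unfold wd
    exact Dvd.dvd.mul_left (Dvd.dvd.mul_right hd _) _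
  have hZ : wd m w0 j (cl a) = g * (wd m w0 j (cl a) / g) := by
    rw [Nat.mul_div_cancel' (Dvd.intro_left _ (by rw [hy]; ring : (μ * y) * g = _))]
  have hη : wd m w0 j (cl a) / g = μ * y := by
    rw [hy, show μ * g * y = g * (μ * y) by ring, Nat.mul_div_cancel_left _ hg]
  have e3 : (2 ^ m) ^ (j + 2 ^ s) = (2 ^ m) ^ 2 ^ s * (2 ^ m) ^ j := by
    rw [add_comm j, pow_add]
  have hbox : ∀ u, u ≤ (2 ^ m) ^ 2 ^ s → InBox m w0 (j + 2 ^ s) a (zT Ch s j i u) := by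
    intro u hu
    rw [ha, hI.lab]
    refine hI.path.inBox_lab hj hi ?_ ?_
    · rw [e3, ← mul_assoc]
      exact Nat.mul_le_mul_right _ (Nat.le_add_right _ _)
    · rw [e3, ← mul_assoc]
      refine Nat.mul_le_mul_right _ ?_
      have : (i + 1) * (2 ^ m) ^ 2 ^ s = i * (2 ^ m) ^ 2 ^ s + (2 ^ m) ^ 2 ^ s := by ring
      omega
  refine ⟨xs, ⟨⟨by positivity, hg, ?_, hμ, hZ, ?_, ?_, ?_, ?_, ?_, ?_⟩, ?_, ?_, ?_, h2, h3⟩⟩
  · rw [hη]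
    refine Nat.pos_of_ne_zero fun h0 => ?_
    rw [hZ, hη, h0] at hZ0
    simp at hZ0
  · rw [hη]; exact Dvd.intro _ rfl
  · refine Dvd.dvd.mul_left (Dvd.dvd.mul_left ?_ _) _
    rw [hy, mul_assoc]; exact Dvd.intro _ rfl
  · intro u hu
    have := (hbox u hu).1
    rw [H869.Units.wd_add] at this
    exact this
  · intro u hu
    have := (hbox u hu).2
    rw [H869.Units.wd_add] at this
    refine this.trans (le_of_eq ?_)
    show _ = bx a * ((2 ^ m) ^ 2 ^ s * wd m w0 j (cl a)) + 2 * ((2 ^ m) ^ 2 ^ s * wd m w0 j (cl a))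
    ring
  · intro u hu
    refine hI.pos_le _ ?_
    show (i * (2 ^ m) ^ 2 ^ s + u) * (2 ^ m) ^ j ≤ (2 ^ m) ^ n
    calc (i * (2 ^ m) ^ 2 ^ s + u) * (2 ^ m) ^ j
        ≤ ((i + 1) * (2 ^ m) ^ 2 ^ s) * (2 ^ m) ^ j := by
          refine Nat.mul_le_mul_right _ ?_
          have : (i + 1) * (2 ^ m) ^ 2 ^ s = i * (2 ^ m) ^ 2 ^ s + (2 ^ m) ^ 2 ^ s := by ring
          omega
      _ = (i + 1) * (2 ^ m) ^ (j + 2 ^ s) := by rw [e3, mul_assoc]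
      _ ≤ (2 ^ m) ^ (n - (j + 2 ^ s)) * (2 ^ m) ^ (j + 2 ^ s) := Nat.mul_le_mul_right _ hi
      _ = (2 ^ m) ^ n := by rw [← pow_add, Nat.sub_add_cancel hj]
  · intro u hu
    obtain ⟨k1, k2, -⟩ := h1 u hu
    exact H763.mem_labL (ℓ := ℓ) (μ := μ) (B := B) (w0 := w0) (J := J) (S := S) (H := H)
      (D1 := D1) (j := j + 2 ^ s) k1 k2
  · intro u hu hl
    exact (h1 u hu).2.2.2.2.2.1 hl
  · intro u hu
    exact (h1 u hu).2.2.2.2.2.2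
  · intro u hu
    exact (h1 u hu).2.2.1

variable {mc : Mach} {ω : Rnd} {g s j i : ℕ} {xs : ℕ → ℕ}

/-- Costs of the units, as seen by the machines of the top. -/
theorem histT_eq (hj : j + 2 ^ s ≤ n) (hi : i < (2 ^ m) ^ (n - (j + 2 ^ s))) (κ : ℕ) {u : ℕ}
    (hu : u < (2 ^ m) ^ 2 ^ s) :
    (hist (clsPar m ℓ μ B w0 J S H (Kc + 3) D1) ω vis hid
      (rd (clsPar m ℓ μ B w0 J S H (Kc + 3) D1) mc ω vis hid) (j + 2 ^ s) i
      (Ch.lab (j + 2 ^ s) i) s κ u (Ch.lab j (i * (2 ^ m) ^ 2 ^ s + u)) (zT Ch s j i u)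
      (zT Ch s j i (u + 1)) : ℝ) =
    (Ch.along mc ω hI.pt hI.hid_le).C j (i * (2 ^ m) ^ 2 ^ s + u)
      ((κ : ℤ) - H - (Ch.along mc ω hI.pt hI.hid_le).US j (2 ^ s) (i * (2 ^ m) ^ 2 ^ s + u)) :=
  Ch.hist_eq mc ω hI.pt hI.hid_le (fun j a => Inst2.pen_self j a) (Inst2.penAdd hI) s j i κ u hj
    hi hu

/-- Costs of the units with any label: at most the true cost plus the mass. -/
theorem histT_le (hj : j + 2 ^ s ≤ n) (hi : i < (2 ^ m) ^ (n - (j + 2 ^ s))) (κ : ℕ) {u : ℕ}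
    (hu : u < (2 ^ m) ^ 2 ^ s) (a x : ℕ) :
    (hist (clsPar m ℓ μ B w0 J S H (Kc + 3) D1) ω vis hid
      (rd (clsPar m ℓ μ B w0 J S H (Kc + 3) D1) mc ω vis hid) (j + 2 ^ s) i a s κ u x
      (zT Ch s j i u) (zT Ch s j i (u + 1)) : ℝ) ≤
    (Ch.along mc ω hI.pt hI.hid_le).DE j (i * (2 ^ m) ^ 2 ^ s + u) +
      (Ch.along mc ω hI.pt hI.hid_le).W j (i * (2 ^ m) ^ 2 ^ s + u) := by
  unfold hist
  rw [Nat.add_sub_cancel]
  exact Inst2.cval_le_DEW hI mc ω _ (le_trans (Nat.le_add_right _ _) hj)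
    (H869.Units.unit_lt hj hi hu)

omit hI in
theorem histT_lip (hI : Inst2 (clsPar m ℓ μ B w0 J S H (Kc + 3) D1) m w0 Kc κr vis hid n S0 Ch)
    (rd : ℕ → RSet) (j i a s κ u x p p' q q' : ℕ) :
    hist (clsPar m ℓ μ B w0 J S H (Kc + 3) D1) ω vis hid rd j i a s κ u x p q ≤
      2 * Nat.dist p p' +
        hist (clsPar m ℓ μ B w0 J S H (Kc + 3) D1) ω vis hid rd j i a s κ u x p' q' +
        2 * Nat.dist q' q :=
  cval_lip (P := clsPar m ℓ μ B w0 J S H (Kc + 3) D1) (Inst2.hE hI) vis hid _ _ _ p p' q q'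

/-- **(ii)** The good unit rows. -/
theorem RouteW.unit (hR : RouteW Ch g s j i xs) (hj : j + 2 ^ s ≤ n)
    (hi : i < (2 ^ m) ^ (n - (j + 2 ^ s))) (κ : ℕ) {u : ℕ} (hu : u < (2 ^ m) ^ 2 ^ s)
    (hl : ¬ lightT Ch s j i u) :
    |(nodeW ((2 ^ m) ^ 2 ^ s) (ZT m w0 j (Ch.lab (j + 2 ^ s) i)) g μ B
        (loT m w0 s j (Ch.lab (j + 2 ^ s) i)) (labL m (Kc + 3) s (Ch.lab (j + 2 ^ s) i))
        (hist (clsPar m ℓ μ B w0 J S H (Kc + 3) D1) ω vis hid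
          (rd (clsPar m ℓ μ B w0 J S H (Kc + 3) D1) mc ω vis hid) (j + 2 ^ s) i
          (Ch.lab (j + 2 ^ s) i) s) κ (u + 1)
        (FW ((2 ^ m) ^ 2 ^ s) g (loT m w0 s j (Ch.lab (j + 2 ^ s) i))
          (ZT m w0 j (Ch.lab (j + 2 ^ s) i) / g) (labL m (Kc + 3) s (Ch.lab (j + 2 ^ s) i))
          (zT Ch s j i) xs (u + 1))
        (FW ((2 ^ m) ^ 2 ^ s) g (loT m w0 s j (Ch.lab (j + 2 ^ s) i))
          (ZT m w0 j (Ch.lab (j + 2 ^ s) i) / g) (labL m (Kc + 3) s (Ch.lab (j + 2 ^ s) i))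
          (zT Ch s j i) xs (u + 2)) : ℝ) -
      (Ch.along mc ω hI.pt hI.hid_le).C j (i * (2 ^ m) ^ 2 ^ s + u)
        ((κ : ℤ) - H - (Ch.along mc ω hI.pt hI.hid_le).US j (2 ^ s) (i * (2 ^ m) ^ 2 ^ s + u))| ≤
      4 * ((ZT m w0 j (Ch.lab (j + 2 ^ s) i) / g : ℕ) : ℝ) := by
  have h1 := hR.net.unit_close (D := hist (clsPar m ℓ μ B w0 J S H (Kc + 3) D1) ω vis hid
    (rd (clsPar m ℓ μ B w0 J S H (Kc + 3) D1) mc ω vis hid) (j + 2 ^ s) i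
    (Ch.lab (j + 2 ^ s) i) s) (histT_lip hI _ _ _ _ _) κ hu
  rw [hR.lab_eq u hu hl, histT_eq hI hj hi κ hu] at h1
  exact h1

/-- **(iii)** All unit rows. -/
theorem RouteW.light (hR : RouteW Ch g s j i xs) (hj : j + 2 ^ s ≤ n)
    (hi : i < (2 ^ m) ^ (n - (j + 2 ^ s))) (κ : ℕ) {u : ℕ} (hu : u < (2 ^ m) ^ 2 ^ s) :
    (nodeW ((2 ^ m) ^ 2 ^ s) (ZT m w0 j (Ch.lab (j + 2 ^ s) i)) g μ B
        (loT m w0 s j (Ch.lab (j + 2 ^ s) i)) (labL m (Kc + 3) s (Ch.lab (j + 2 ^ s) i))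
        (hist (clsPar m ℓ μ B w0 J S H (Kc + 3) D1) ω vis hid
          (rd (clsPar m ℓ μ B w0 J S H (Kc + 3) D1) mc ω vis hid) (j + 2 ^ s) i
          (Ch.lab (j + 2 ^ s) i) s) κ (u + 1)
        (FW ((2 ^ m) ^ 2 ^ s) g (loT m w0 s j (Ch.lab (j + 2 ^ s) i))
          (ZT m w0 j (Ch.lab (j + 2 ^ s) i) / g) (labL m (Kc + 3) s (Ch.lab (j + 2 ^ s) i))
          (zT Ch s j i) xs (u + 1))
        (FW ((2 ^ m) ^ 2 ^ s) g (loT m w0 s j (Ch.lab (j + 2 ^ s) i))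
          (ZT m w0 j (Ch.lab (j + 2 ^ s) i) / g) (labL m (Kc + 3) s (Ch.lab (j + 2 ^ s) i))
          (zT Ch s j i) xs (u + 2)) : ℝ) ≤
      (Ch.along mc ω hI.pt hI.hid_le).C j (i * (2 ^ m) ^ 2 ^ s + u)
        ((κ : ℤ) - H - (Ch.along mc ω hI.pt hI.hid_le).US j (2 ^ s) (i * (2 ^ m) ^ 2 ^ s + u)) +
      (Ch.along mc ω hI.pt hI.hid_le).W j (i * (2 ^ m) ^ 2 ^ s + u) +
      4 * ((ZT m w0 j (Ch.lab (j + 2 ^ s) i) / g : ℕ) : ℝ) := by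
  have h1 := (abs_le.1 (hR.net.unit_close (D := hist (clsPar m ℓ μ B w0 J S H (Kc + 3) D1) ω vis
    hid (rd (clsPar m ℓ μ B w0 J S H (Kc + 3) D1) mc ω vis hid) (j + 2 ^ s) i
    (Ch.lab (j + 2 ^ s) i) s) (histT_lip hI _ _ _ _ _) κ hu)).2
  have h2 := histT_le hI (mc := mc) (ω := ω) hj hi κ hu (Ch.lab (j + 2 ^ s) i) (xs u)
  have h3 := Inst2.DE_le_C hI mc ω (le_trans (Nat.le_add_right _ _) hj)
    (H869.Units.unit_lt hj hi hu)
    ((κ : ℤ) - H - (Ch.along mc ω hI.pt hI.hid_le).US j (2 ^ s) (i * (2 ^ m) ^ 2 ^ s + u))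
  linarith

/-- The mass of the top in terms of the width. -/
theorem KZ_le_W (mc : Mach) (ω : Rnd) (hj : j + 2 ^ s < n)  :
    (((2 ^ m) ^ 2 ^ s : ℕ) : ℝ) * (ZT m w0 j (Ch.lab (j + 2 ^ s) i) : ℕ) ≤
      8 * (Ch.along mc ω hI.pt hI.hid_le).W (j + 2 ^ s) i := by
  rw [Inst2.W_eq hI, hI.lab]
  have h1 := H869.Units.le_top_mass (i := i) hI.path hj
  exact_mod_cast h1

/-- The mass of the top is at most `K Z`. -/
theorem W_le_KZ (mc : Mach) (ω : Rnd) (hj : j + 2 ^ s ≤ n)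
    (hi : i < (2 ^ m) ^ (n - (j + 2 ^ s))) :
    (Ch.along mc ω hI.pt hI.hid_le).W (j + 2 ^ s) i ≤
      (((2 ^ m) ^ 2 ^ s : ℕ) : ℝ) * (ZT m w0 j (Ch.lab (j + 2 ^ s) i) : ℕ) := by
  rw [Inst2.W_eq hI, hI.lab]
  have h1 := H869.Units.top_mass_le hI.path hj hi
  exact_mod_cast h1

/-- The mass of a unit is at most its weight times `Z`. -/
theorem RouteW.unit_mass_le (hR : RouteW Ch g s j i xs) (mc : Mach) (ω : Rnd)
    (hj : j + 2 ^ s ≤ n) (hi : i < (2 ^ m) ^ (n - (j + 2 ^ s))) {u : ℕ}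
    (hu : u < (2 ^ m) ^ 2 ^ s) :
    (Ch.along mc ω hI.pt hI.hid_le).W j (i * (2 ^ m) ^ 2 ^ s + u) ≤
      (wt (cl (Ch.lab (j + 2 ^ s) i)) (xs u) : ℝ) * (ZT m w0 j (Ch.lab (j + 2 ^ s) i) : ℕ) := by
  rw [Inst2.W_eq hI, hR.wt_eq u hu, hI.lab, hI.lab]
  have h1 := H869.Units.unit_mass_le hI.path (le_trans (Nat.le_add_right _ _) hj)
    (H869.Units.unit_lt hj hi hu) (cl (lab m w0 S0 Ch.pos n κr (j + 2 ^ s) i))
  exact_mod_cast h1

/-- **(v)** The cost of the whole route. -/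
theorem RouteW.sum_le (hR : RouteW Ch g s j i xs) (hj : j + 2 ^ s < n)
    (hi : i < (2 ^ m) ^ (n - (j + 2 ^ s))) (κ : ℕ) :
    ∑ r ∈ range ((2 ^ m) ^ 2 ^ s + 2),
      (nodeW ((2 ^ m) ^ 2 ^ s) (ZT m w0 j (Ch.lab (j + 2 ^ s) i)) g μ B
        (loT m w0 s j (Ch.lab (j + 2 ^ s) i)) (labL m (Kc + 3) s (Ch.lab (j + 2 ^ s) i))
        (hist (clsPar m ℓ μ B w0 J S H (Kc + 3) D1) ω vis hid
          (rd (clsPar m ℓ μ B w0 J S H (Kc + 3) D1) mc ω vis hid) (j + 2 ^ s) i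
          (Ch.lab (j + 2 ^ s) i) s) κ r
        (FW ((2 ^ m) ^ 2 ^ s) g (loT m w0 s j (Ch.lab (j + 2 ^ s) i))
          (ZT m w0 j (Ch.lab (j + 2 ^ s) i) / g) (labL m (Kc + 3) s (Ch.lab (j + 2 ^ s) i))
          (zT Ch s j i) xs r)
        (FW ((2 ^ m) ^ 2 ^ s) g (loT m w0 s j (Ch.lab (j + 2 ^ s) i))
          (ZT m w0 j (Ch.lab (j + 2 ^ s) i) / g) (labL m (Kc + 3) s (Ch.lab (j + 2 ^ s) i))
          (zT Ch s j i) xs (r + 1)) : ℝ) ≤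
      ∑ u ∈ range ((2 ^ m) ^ 2 ^ s), (Ch.along mc ω hI.pt hI.hid_le).C j
        (i * (2 ^ m) ^ 2 ^ s + u)
        ((κ : ℤ) - H - (Ch.along mc ω hI.pt hI.hid_le).US j (2 ^ s) (i * (2 ^ m) ^ 2 ^ s + u)) +
      (Ch.along mc ω hI.pt hI.hid_le).W (j + 2 ^ s) i *
        (64 / g + 8 / (((2 ^ m) ^ 2 ^ s : ℕ) : ℝ) ^ 3) := by
  obtain ⟨K, hK⟩ : ∃ K, K = (2 ^ m) ^ 2 ^ s := ⟨_, rfl⟩
  obtain ⟨Z, hZ⟩ : ∃ Z, Z = ZT m w0 j (Ch.lab (j + 2 ^ s) i) := ⟨_, rfl⟩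
  have hg : (0 : ℝ) < g := by exact_mod_cast hR.net.hg
  have h0 := H869.PathSum.sum_rows_le (K := (2 ^ m) ^ 2 ^ s)
    (light := fun u => lightT Ch s j i u)
    (w := fun u => (Ch.along mc ω hI.pt hI.hid_le).W j (i * (2 ^ m) ^ 2 ^ s + u))
    (cU := fun u => (Ch.along mc ω hI.pt hI.hid_le).C j (i * (2 ^ m) ^ 2 ^ s + u)
        ((κ : ℤ) - H - (Ch.along mc ω hI.pt hI.hid_le).US j (2 ^ s) (i * (2 ^ m) ^ 2 ^ s + u)))
    (dn := fun r => (nodeW ((2 ^ m) ^ 2 ^ s) (ZT m w0 j (Ch.lab (j + 2 ^ s) i)) g μ B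
        (loT m w0 s j (Ch.lab (j + 2 ^ s) i)) (labL m (Kc + 3) s (Ch.lab (j + 2 ^ s) i))
        (hist (clsPar m ℓ μ B w0 J S H (Kc + 3) D1) ω vis hid
          (rd (clsPar m ℓ μ B w0 J S H (Kc + 3) D1) mc ω vis hid) (j + 2 ^ s) i
          (Ch.lab (j + 2 ^ s) i) s) κ r
        (FW ((2 ^ m) ^ 2 ^ s) g (loT m w0 s j (Ch.lab (j + 2 ^ s) i))
          (ZT m w0 j (Ch.lab (j + 2 ^ s) i) / g) (labL m (Kc + 3) s (Ch.lab (j + 2 ^ s) i))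
          (zT Ch s j i) xs r)
        (FW ((2 ^ m) ^ 2 ^ s) g (loT m w0 s j (Ch.lab (j + 2 ^ s) i))
          (ZT m w0 j (Ch.lab (j + 2 ^ s) i) / g) (labL m (Kc + 3) s (Ch.lab (j + 2 ^ s) i))
          (zT Ch s j i) xs (r + 1)) : ℝ))
    (r := 4 * ((ZT m w0 j (Ch.lab (j + 2 ^ s) i) / g : ℕ) : ℝ))
    (re := 2 * ((((2 ^ m) ^ 2 ^ s : ℕ) : ℝ) *
      ((ZT m w0 j (Ch.lab (j + 2 ^ s) i) / g : ℕ) : ℝ)))
    (fun u hu hl => by
      have := (abs_le.1 (hR.unit hI (mc := mc) (ω := ω) hj.le hi κ hu hl)).2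
      linarith)
    (fun u hu _ => hR.light hI (mc := mc) (ω := ω) hj.le hi κ hu)
    (by
      have := hR.net.first_row (hist (clsPar m ℓ μ B w0 J S H (Kc + 3) D1) ω vis hid
          (rd (clsPar m ℓ μ B w0 J S H (Kc + 3) D1) mc ω vis hid) (j + 2 ^ s) i
          (Ch.lab (j + 2 ^ s) i) s) κ
      exact_mod_cast this)
    (by
      have := hR.net.last_row (hist (clsPar m ℓ μ B w0 J S H (Kc + 3) D1) ω vis hid
          (rd (clsPar m ℓ μ B w0 J S H (Kc + 3) D1) mc ω vis hid) (j + 2 ^ s) i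
          (Ch.lab (j + 2 ^ s) i) s) κ
      exact_mod_cast this)
  refine h0.trans (add_le_add_right ?_ _)
  have h1 := H869.Units.light_share_le (i := i) hI.path hj hi
  have h2 : ∑ u ∈ (range ((2 ^ m) ^ 2 ^ s)).filter (fun u => lightT Ch s j i u),
      (Ch.along mc ω hI.pt hI.hid_le).W j (i * (2 ^ m) ^ 2 ^ s + u) ≤
      8 / (((2 ^ m) ^ 2 ^ s : ℕ) : ℝ) ^ 3 * (Ch.along mc ω hI.pt hI.hid_le).W (j + 2 ^ s) i := by
    simp only [Inst2.W_eq hI, lightT, hI.lab]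
    push_cast at h1 ⊢
    exact h1
  have h3 := KZ_le_W hI (i := i) mc ω hj
  have h4 : ((ZT m w0 j (Ch.lab (j + 2 ^ s) i) / g : ℕ) : ℝ) * g =
      (ZT m w0 j (Ch.lab (j + 2 ^ s) i) : ℕ) := by
    have := hR.net.hZ
    rw [mul_comm]
    exact_mod_cast this.symm
  have h5 : (((2 ^ m) ^ 2 ^ s : ℕ) : ℝ) * (4 * ((ZT m w0 j (Ch.lab (j + 2 ^ s) i) / g : ℕ) : ℝ)) +
      2 * (2 * ((((2 ^ m) ^ 2 ^ s : ℕ) : ℝ) *
        ((ZT m w0 j (Ch.lab (j + 2 ^ s) i) / g : ℕ) : ℝ))) ≤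
      (Ch.along mc ω hI.pt hI.hid_le).W (j + 2 ^ s) i * (64 / g) := by
    rw [mul_div_assoc', le_div_iff₀ hg]
    rw [← h4] at h3
    nlinarith
  nlinarith

end route

end Vale.Agent.P315.H638
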