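import Vale.Agent.P315.H638.PathW
import Vale.Agent.P315.H763.CertW
import Vale.Agent.P315.H220.InstW

/-!
P315, milestone 2 (helper638): the facts of `H638/PathW` in the form of the hypotheses of
`H763.plugW` (units over `Fin K`, `K = (2 ^ m) ^ 2 ^ s`).
-/

set_option autoImplicit false

open Finset

namespace Vale.Agent.P315.H638

open Vale.Agent.P315.C
open Vale.Agent.P315.H95 (cl bx ac wd lab mass InBox PathOK clsPar)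
open Vale.Agent.P315.H808 (Chain Along)
open Vale.Agent.P315.H846 (Inst2)
open Vale.Agent.P315.H869.Units (Light wt)
open Vale.Agent.P315.H763 (labL)
open Vale.Agent.P315.H155 (nodeW pW posX labX kxW)
open Vale.Agent.P315.H801 (WD)

variable {m ℓ μ B w0 J S H Kc D1 n κr : ℕ} {vis hid : Leaf} {S0 : ℕ → ℕ}
  {Ch : Chain (clsPar m ℓ μ B w0 J S H (Kc + 3) D1) vis hid n}

/-- Entry of the net pair. -/
abbrev a0T (Ch : Chain (clsPar m ℓ μ B w0 J S H (Kc + 3) D1) vis hid n) (g s j i : ℕ) : ℕ :=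
  cnW ((2 ^ m) ^ 2 ^ s) (loT m w0 s j (Ch.lab (j + 2 ^ s) i))
    (ZT m w0 j (Ch.lab (j + 2 ^ s) i) / g) (zT Ch s j i 0)

/-- Exit of the net pair. -/
abbrev b0T (Ch : Chain (clsPar m ℓ μ B w0 J S H (Kc + 3) D1) vis hid n) (g s j i : ℕ) : ℕ :=
  cnW ((2 ^ m) ^ 2 ^ s) (loT m w0 s j (Ch.lab (j + 2 ^ s) i))
    (ZT m w0 j (Ch.lab (j + 2 ^ s) i) / g) (zT Ch s j i ((2 ^ m) ^ 2 ^ s))

/-- The nodes of the route. -/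
abbrev fT (Ch : Chain (clsPar m ℓ μ B w0 J S H (Kc + 3) D1) vis hid n) (g s j i : ℕ)
    (xs : ℕ → ℕ) : ℕ → ℕ :=
  FW ((2 ^ m) ^ 2 ^ s) g (loT m w0 s j (Ch.lab (j + 2 ^ s) i))
    (ZT m w0 j (Ch.lab (j + 2 ^ s) i) / g) (labL m (Kc + 3) s (Ch.lab (j + 2 ^ s) i))
    (zT Ch s j i) xs

variable {g s j i : ℕ} {xs : ℕ → ℕ}

theorem RouteW.f0 : fT Ch g s j i xs 0 = a0T Ch g s j i * (2 ^ m) ^ 2 ^ s := NetW.FW_zero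

theorem RouteW.fK : fT Ch g s j i xs ((2 ^ m) ^ 2 ^ s + 2) =
    b0T Ch g s j i * (2 ^ m) ^ 2 ^ s := NetW.FW_last

theorem RouteW.hf (hR : RouteW Ch g s j i xs) (r : ℕ) : fT Ch g s j i xs r <
    pW ((2 ^ m) ^ 2 ^ s) g (labL m (Kc + 3) s (Ch.lab (j + 2 ^ s) i)) := hR.net.FW_lt r

theorem RouteW.a0_le (hR : RouteW Ch g s j i xs) : a0T Ch g s j i ≤ 2 * g :=
  hR.net.cn_num (Nat.zero_le _)

theorem RouteW.b0_le (hR : RouteW Ch g s j i xs) : b0T Ch g s j i ≤ 2 * g :=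
  hR.net.cn_num le_rfl

/-- Weight of the edge into the unit `u`. -/
theorem RouteW.kx (hR : RouteW Ch g s j i xs) {u : ℕ} (hu : u < (2 ^ m) ^ 2 ^ s) :
    2 ^ kxW (m * 2 ^ s) (cl (Ch.lab (j + 2 ^ s) i))
      (labX ((2 ^ m) ^ 2 ^ s) g (labL m (Kc + 3) s (Ch.lab (j + 2 ^ s) i))
        (fT Ch g s j i xs (u + 2))) = wt (cl (Ch.lab (j + 2 ^ s) i)) (xs u) := by
  rw [hR.net.lab_mid hu]
  unfold kxW wt
  have h1 := hR.cl_le u hu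
  rw [min_eq_left (by rw [mul_comm m]; omega)]

/-- `hwt` of `plugW`. -/
theorem RouteW.hwt (hR : RouteW Ch g s j i xs) :
    ∑ u ∈ range ((2 ^ m) ^ 2 ^ s), 2 ^ kxW (m * 2 ^ s) (cl (Ch.lab (j + 2 ^ s) i))
      (labX ((2 ^ m) ^ 2 ^ s) g (labL m (Kc + 3) s (Ch.lab (j + 2 ^ s) i))
        (fT Ch g s j i xs (u + 2))) ≤ 9 * (2 ^ m) ^ 2 ^ s := by
  refine le_trans (le_of_eq (sum_congr rfl fun u hu => ?_)) hR.sum_wt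
  exact hR.kx (mem_range.1 hu)

section

variable (hI : Inst2 (clsPar m ℓ μ B w0 J S H (Kc + 3) D1) m w0 Kc κr vis hid n S0 Ch)
  {mc : Mach} {ω : Rnd}

include hI

/-- `hwu` of `plugW`. -/
theorem RouteW.hwu (hR : RouteW Ch g s j i xs) (mc : Mach) (ω : Rnd)
    (hj : j + 2 ^ s ≤ n) (hi : i < (2 ^ m) ^ (n - (j + 2 ^ s))) (u : Fin ((2 ^ m) ^ 2 ^ s)) :
    (Ch.along mc ω hI.pt hI.hid_le).W j (i * (2 ^ m) ^ 2 ^ s + u) ≤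
      (2 : ℝ) ^ kxW (m * 2 ^ s) (cl (Ch.lab (j + 2 ^ s) i))
        (labX ((2 ^ m) ^ 2 ^ s) g (labL m (Kc + 3) s (Ch.lab (j + 2 ^ s) i))
          (fT Ch g s j i xs (u + 2))) * (ZT m w0 j (Ch.lab (j + 2 ^ s) i) : ℕ) := by
  have h1 := hR.unit_mass_le hI mc ω hj hi u.2
  rw [← hR.kx u.2] at h1
  exact_mod_cast h1

/-- `hr` of `plugW`. -/
theorem RouteW.hr (hR : RouteW Ch g s j i xs) (hj : j + 2 ^ s ≤ n)
    (hi : i < (2 ^ m) ^ (n - (j + 2 ^ s))) (t : ℕ) (u : Fin ((2 ^ m) ^ 2 ^ s))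
    (hl : ¬ lightT Ch s j i u) :
    |(nodeW ((2 ^ m) ^ 2 ^ s) (ZT m w0 j (Ch.lab (j + 2 ^ s) i)) g μ B
        (loT m w0 s j (Ch.lab (j + 2 ^ s) i)) (labL m (Kc + 3) s (Ch.lab (j + 2 ^ s) i))
        (hist (clsPar m ℓ μ B w0 J S H (Kc + 3) D1) ω vis hid
          (rd (clsPar m ℓ μ B w0 J S H (Kc + 3) D1) mc ω vis hid) (j + 2 ^ s) i
          (Ch.lab (j + 2 ^ s) i) s) t (u + 1) (fT Ch g s j i xs (u + 1))
        (fT Ch g s j i xs (u + 2)) : ℝ) -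
      (Ch.along mc ω hI.pt hI.hid_le).C j (i * (2 ^ m) ^ 2 ^ s + u)
        ((t : ℤ) - H - (Ch.along mc ω hI.pt hI.hid_le).US j (2 ^ s) (i * (2 ^ m) ^ 2 ^ s + u))| ≤
      4 * ((ZT m w0 j (Ch.lab (j + 2 ^ s) i) / g : ℕ) : ℝ) :=
  hR.unit hI hj hi t u.2 hl

theorem sum_W_fin (mc : Mach) (ω : Rnd) (s j i : ℕ) :
    ∑ u : Fin ((2 ^ m) ^ 2 ^ s), (Ch.along mc ω hI.pt hI.hid_le).W j (i * (2 ^ m) ^ 2 ^ s + u) =
      (Ch.along mc ω hI.pt hI.hid_le).W (j + 2 ^ s) i := by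
  rw [Fin.sum_univ_eq_sum_range
    (fun u => (Ch.along mc ω hI.pt hI.hid_le).W j (i * (2 ^ m) ^ 2 ^ s + u)) ((2 ^ m) ^ 2 ^ s)]
  exact ((Ch.along mc ω hI.pt hI.hid_le).W_units j (2 ^ s) i).symm

/-- `hsum` of `plugW`, `rt = 64 / g + 8 / K ^ 3`. -/
theorem RouteW.hsum (hR : RouteW Ch g s j i xs) (hj : j + 2 ^ s < n)
    (hi : i < (2 ^ m) ^ (n - (j + 2 ^ s))) (t : ℕ) :
    ∑ r ∈ range ((2 ^ m) ^ 2 ^ s + 2),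
      (nodeW ((2 ^ m) ^ 2 ^ s) (ZT m w0 j (Ch.lab (j + 2 ^ s) i)) g μ B
        (loT m w0 s j (Ch.lab (j + 2 ^ s) i)) (labL m (Kc + 3) s (Ch.lab (j + 2 ^ s) i))
        (hist (clsPar m ℓ μ B w0 J S H (Kc + 3) D1) ω vis hid
          (rd (clsPar m ℓ μ B w0 J S H (Kc + 3) D1) mc ω vis hid) (j + 2 ^ s) i
          (Ch.lab (j + 2 ^ s) i) s) t r (fT Ch g s j i xs r) (fT Ch g s j i xs (r + 1)) : ℝ) ≤
      ∑ u : Fin ((2 ^ m) ^ 2 ^ s), (Ch.along mc ω hI.pt hI.hid_le).C j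
        (i * (2 ^ m) ^ 2 ^ s + u)
        ((t : ℤ) - H - (Ch.along mc ω hI.pt hI.hid_le).US j (2 ^ s) (i * (2 ^ m) ^ 2 ^ s + u)) +
      (∑ u : Fin ((2 ^ m) ^ 2 ^ s), (Ch.along mc ω hI.pt hI.hid_le).W j
        (i * (2 ^ m) ^ 2 ^ s + u)) * (64 / g + 8 / (((2 ^ m) ^ 2 ^ s : ℕ) : ℝ) ^ 3) := by
  rw [sum_W_fin hI mc ω s j i, Fin.sum_univ_eq_sum_range
    (fun u => (Ch.along mc ω hI.pt hI.hid_le).C j (i * (2 ^ m) ^ 2 ^ s + u)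
      ((t : ℤ) - H - (Ch.along mc ω hI.pt hI.hid_le).US j (2 ^ s) (i * (2 ^ m) ^ 2 ^ s + u)))
    ((2 ^ m) ^ 2 ^ s)]
  exact hR.sum_le hI hj hi t

omit hI in
theorem zT_zero (s j i : ℕ) : zT Ch s j i 0 = Ch.pos (i * (2 ^ m) ^ (j + 2 ^ s)) := by
  show Ch.pos ((i * (2 ^ m) ^ 2 ^ s + 0) * (2 ^ m) ^ j) = _
  congr 1
  rw [add_comm j, pow_add]; ring

omit hI in
theorem zT_top (s j i : ℕ) : zT Ch s j i ((2 ^ m) ^ 2 ^ s) =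
    Ch.pos ((i + 1) * (2 ^ m) ^ (j + 2 ^ s)) := by
  show Ch.pos ((i * (2 ^ m) ^ 2 ^ s + (2 ^ m) ^ 2 ^ s) * (2 ^ m) ^ j) = _
  congr 1
  rw [add_comm j, pow_add]; ring

/-- The curve of the top, and the certified cost between the coarse ends: upper bound of the
curve. -/
theorem RouteW.C_le_coarse (hR : RouteW Ch g s j i xs) (mc : Mach) (ω : Rnd) (b : ℤ) :
    (Ch.along mc ω hI.pt hI.hid_le).C (j + 2 ^ s) i b ≤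
      (cR (clsPar m ℓ μ B w0 J S H (Kc + 3) D1) mc ω vis hid (j + 2 ^ s) i
        (Ch.lab (j + 2 ^ s) i) b
        (posX ((2 ^ m) ^ 2 ^ s) (ZT m w0 j (Ch.lab (j + 2 ^ s) i)) g μ B
          (loT m w0 s j (Ch.lab (j + 2 ^ s) i)) (fT Ch g s j i xs 0))
        (posX ((2 ^ m) ^ 2 ^ s) (ZT m w0 j (Ch.lab (j + 2 ^ s) i)) g μ B
          (loT m w0 s j (Ch.lab (j + 2 ^ s) i)) (fT Ch g s j i xs ((2 ^ m) ^ 2 ^ s + 2))) : ℝ) +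
      4 * ((((2 ^ m) ^ 2 ^ s : ℕ) : ℝ) * ((ZT m w0 j (Ch.lab (j + 2 ^ s) i) / g : ℕ) : ℝ)) := by
  have h1 : Nat.dist (posX ((2 ^ m) ^ 2 ^ s) (ZT m w0 j (Ch.lab (j + 2 ^ s) i)) g μ B
      (loT m w0 s j (Ch.lab (j + 2 ^ s) i)) (fT Ch g s j i xs 0)) (zT Ch s j i 0) ≤
      (2 ^ m) ^ 2 ^ s * (ZT m w0 j (Ch.lab (j + 2 ^ s) i) / g) := hR.net.dist_zero
  have h2 : Nat.dist (posX ((2 ^ m) ^ 2 ^ s) (ZT m w0 j (Ch.lab (j + 2 ^ s) i)) g μ B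
      (loT m w0 s j (Ch.lab (j + 2 ^ s) i)) (fT Ch g s j i xs ((2 ^ m) ^ 2 ^ s + 2)))
      (zT Ch s j i ((2 ^ m) ^ 2 ^ s)) ≤
      (2 ^ m) ^ 2 ^ s * (ZT m w0 j (Ch.lab (j + 2 ^ s) i) / g) := hR.net.dist_last
  have h3 := cR_lip (mc := mc) (ω := ω) (vis := vis) (hid := hid)
    (P := clsPar m ℓ μ B w0 J S H (Kc + 3) D1) (Inst2.hE hI) (j + 2 ^ s) i
    (Ch.lab (j + 2 ^ s) i) b (zT Ch s j i 0)
    (posX ((2 ^ m) ^ 2 ^ s) (ZT m w0 j (Ch.lab (j + 2 ^ s) i)) g μ B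
      (loT m w0 s j (Ch.lab (j + 2 ^ s) i)) (fT Ch g s j i xs 0))
    (zT Ch s j i ((2 ^ m) ^ 2 ^ s))
    (posX ((2 ^ m) ^ 2 ^ s) (ZT m w0 j (Ch.lab (j + 2 ^ s) i)) g μ B
      (loT m w0 s j (Ch.lab (j + 2 ^ s) i)) (fT Ch g s j i xs ((2 ^ m) ^ 2 ^ s + 2)))
  rw [Nat.dist_comm] at h1
  have h4 : (clsPar m ℓ μ B w0 J S H (Kc + 3) D1).sh = 2 := rfl
  rw [h4] at h3
  have h5 : (Ch.along mc ω hI.pt hI.hid_le).C (j + 2 ^ s) i b =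
      (cR (clsPar m ℓ μ B w0 J S H (Kc + 3) D1) mc ω vis hid (j + 2 ^ s) i
        (Ch.lab (j + 2 ^ s) i) b (zT Ch s j i 0) (zT Ch s j i ((2 ^ m) ^ 2 ^ s)) : ℝ) := by
    rw [zT_zero, zT_top]
    rfl
  rw [h5]
  have h6 : cR (clsPar m ℓ μ B w0 J S H (Kc + 3) D1) mc ω vis hid (j + 2 ^ s) i
        (Ch.lab (j + 2 ^ s) i) b (zT Ch s j i 0) (zT Ch s j i ((2 ^ m) ^ 2 ^ s)) ≤
      cR (clsPar m ℓ μ B w0 J S H (Kc + 3) D1) mc ω vis hid (j + 2 ^ s) i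
        (Ch.lab (j + 2 ^ s) i) b
        (posX ((2 ^ m) ^ 2 ^ s) (ZT m w0 j (Ch.lab (j + 2 ^ s) i)) g μ B
          (loT m w0 s j (Ch.lab (j + 2 ^ s) i)) (fT Ch g s j i xs 0))
        (posX ((2 ^ m) ^ 2 ^ s) (ZT m w0 j (Ch.lab (j + 2 ^ s) i)) g μ B
          (loT m w0 s j (Ch.lab (j + 2 ^ s) i)) (fT Ch g s j i xs ((2 ^ m) ^ 2 ^ s + 2))) +
      4 * ((2 ^ m) ^ 2 ^ s * (ZT m w0 j (Ch.lab (j + 2 ^ s) i) / g)) := by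
    omega
  exact_mod_cast h6

/-- The value of the net pair is at most the units plus `W rt`. -/
theorem RouteW.WD_le (hR : RouteW Ch g s j i xs) (hj : j + 2 ^ s < n)
    (hi : i < (2 ^ m) ^ (n - (j + 2 ^ s))) (t : ℕ) :
    (WD ((2 ^ m) ^ 2 ^ s + 2)
      (pW ((2 ^ m) ^ 2 ^ s) g (labL m (Kc + 3) s (Ch.lab (j + 2 ^ s) i)))
      (a0T Ch g s j i * (2 ^ m) ^ 2 ^ s) (b0T Ch g s j i * (2 ^ m) ^ 2 ^ s)
      (nodeW ((2 ^ m) ^ 2 ^ s) (ZT m w0 j (Ch.lab (j + 2 ^ s) i)) g μ B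
        (loT m w0 s j (Ch.lab (j + 2 ^ s) i)) (labL m (Kc + 3) s (Ch.lab (j + 2 ^ s) i))
        (hist (clsPar m ℓ μ B w0 J S H (Kc + 3) D1) ω vis hid
          (rd (clsPar m ℓ μ B w0 J S H (Kc + 3) D1) mc ω vis hid) (j + 2 ^ s) i
          (Ch.lab (j + 2 ^ s) i) s) t) : ℝ) ≤
      ∑ u ∈ range ((2 ^ m) ^ 2 ^ s), (Ch.along mc ω hI.pt hI.hid_le).C j
        (i * (2 ^ m) ^ 2 ^ s + u)
        ((t : ℤ) - H - (Ch.along mc ω hI.pt hI.hid_le).US j (2 ^ s) (i * (2 ^ m) ^ 2 ^ s + u)) +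
      (Ch.along mc ω hI.pt hI.hid_le).W (j + 2 ^ s) i *
        (64 / g + 8 / (((2 ^ m) ^ 2 ^ s : ℕ) : ℝ) ^ 3) := by
  have h1 := H220.wd_le_nodes (K := (2 ^ m) ^ 2 ^ s) (Z := ZT m w0 j (Ch.lab (j + 2 ^ s) i))
    (μ := μ) (B := B) (lo := loT m w0 s j (Ch.lab (j + 2 ^ s) i)) (κ := t) hR.net.ne
    (D := hist (clsPar m ℓ μ B w0 J S H (Kc + 3) D1) ω vis hid
      (rd (clsPar m ℓ μ B w0 J S H (Kc + 3) D1) mc ω vis hid) (j + 2 ^ s) i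
      (Ch.lab (j + 2 ^ s) i) s) hR.a0_le hR.b0_le (fT Ch g s j i xs) NetW.FW_zero NetW.FW_last
    (fun r _ => hR.hf r)
  have h2 := hR.sum_le hI (mc := mc) (ω := ω) hj hi t
  refine le_trans ?_ h2
  exact_mod_cast h1

end

end Vale.Agent.P315.H638
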