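import Vale.Agent.P315.H638.PathW2
import Vale.Agent.P315.H244.WT

/-!
P315, milestone 2 (helper638): the value of the net pair of a top from below (`hz2` of
`H763.plugW`).
-/

set_option autoImplicit false

open Finset

namespace Vale.Agent.P315.H638

open Vale.Agent.P315.C
open Vale.Agent.P315.H95 (cl bx ac wd lab mass InBox PathOK clsPar)
open Vale.Agent.P315.H808 (Chain Along)
open Vale.Agent.P315.H846 (Inst2)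
open Vale.Agent.P315.H869.Units (Light wt)
open Vale.Agent.P315.H763 (labL)
open Vale.Agent.P315.H155 (nodeW pW posX labX kxW)
open Vale.Agent.P315.H801 (WD)

theorem penOK_clsR {m ℓ μ B w0 J S H Kc D1 : ℕ} : C.PenOK (clsPar m ℓ μ B w0 J S H Kc D1) := by
  intro j e a x hx
  obtain ⟨a', h1, h2⟩ := C.mem_desc_succ.1 hx
  exact ⟨a', h1, h2, (H95.pen_add h1 h2).le⟩

variable {m ℓ μ B w0 J S H Kc D1 n κr : ℕ} {vis hid : Leaf} {S0 : ℕ → ℕ}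
  {Ch : Chain (clsPar m ℓ μ B w0 J S H (Kc + 3) D1) vis hid n} {g s j i : ℕ} {xs : ℕ → ℕ}
  (hI : Inst2 (clsPar m ℓ μ B w0 J S H (Kc + 3) D1) m w0 Kc κr vis hid n S0 Ch)
  {mc : Mach} {ω : Rnd}

include hI

/-- The certified cost of the top with any ends is at most the value of the net pair plus the
shifts. -/
theorem cR_le_WD (hLB : labL m (Kc + 3) s (Ch.lab (j + 2 ^ s) i) ≠ []) {a0 b0 : ℕ}
    (ha : a0 ≤ 2 * g) (hb : b0 ≤ 2 * g) (t u v : ℕ) :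
    cR (clsPar m ℓ μ B w0 J S H (Kc + 3) D1) mc ω vis hid (j + 2 ^ s) i
        (Ch.lab (j + 2 ^ s) i) ((t : ℤ) - H) u v ≤
      WD ((2 ^ m) ^ 2 ^ s + 2)
        (pW ((2 ^ m) ^ 2 ^ s) g (labL m (Kc + 3) s (Ch.lab (j + 2 ^ s) i)))
        (a0 * (2 ^ m) ^ 2 ^ s) (b0 * (2 ^ m) ^ 2 ^ s)
        (nodeW ((2 ^ m) ^ 2 ^ s) (ZT m w0 j (Ch.lab (j + 2 ^ s) i)) g μ B
          (loT m w0 s j (Ch.lab (j + 2 ^ s) i)) (labL m (Kc + 3) s (Ch.lab (j + 2 ^ s) i))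
          (hist (clsPar m ℓ μ B w0 J S H (Kc + 3) D1) ω vis hid
            (rd (clsPar m ℓ μ B w0 J S H (Kc + 3) D1) mc ω vis hid) (j + 2 ^ s) i
            (Ch.lab (j + 2 ^ s) i) s) t) +
      2 * Nat.dist u (posX ((2 ^ m) ^ 2 ^ s) (ZT m w0 j (Ch.lab (j + 2 ^ s) i)) g μ B
          (loT m w0 s j (Ch.lab (j + 2 ^ s) i)) (a0 * (2 ^ m) ^ 2 ^ s)) +
      2 * Nat.dist (posX ((2 ^ m) ^ 2 ^ s) (ZT m w0 j (Ch.lab (j + 2 ^ s) i)) g μ B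
          (loT m w0 s j (Ch.lab (j + 2 ^ s) i)) (b0 * (2 ^ m) ^ 2 ^ s)) v :=
  H244.cR_le_WT (P := clsPar m ℓ μ B w0 J S H (Kc + 3) D1) (mc := mc) (ω := ω) (vis := vis)
    (hid := hid) (j := j + 2 ^ s) (i := i) (a := Ch.lab (j + 2 ^ s) i) (s := s)
    (p := pW ((2 ^ m) ^ 2 ^ s) g (labL m (Kc + 3) s (Ch.lab (j + 2 ^ s) i)))
    (A0 := a0 * (2 ^ m) ^ 2 ^ s) (B0 := b0 * (2 ^ m) ^ 2 ^ s)
    (lb := labX ((2 ^ m) ^ 2 ^ s) g (labL m (Kc + 3) s (Ch.lab (j + 2 ^ s) i)))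
    (zp := posX ((2 ^ m) ^ 2 ^ s) (ZT m w0 j (Ch.lab (j + 2 ^ s) i)) g μ B
      (loT m w0 s j (Ch.lab (j + 2 ^ s) i)))
    (show 0 < 2 ^ m by positivity) penOK_clsR (Inst2.hE hI) (Inst2.hle hI)
    (Nat.le_add_left _ _) (H220.node_lt_pW hLB ha) (H220.node_lt_pW hLB hb)
    (fun _ _ => H763.labL_desc (ℓ := ℓ) (μ := μ) (B := B) (w0 := w0) (J := J) (S := S) (H := H)
      (D1 := D1) s (j + 2 ^ s) (Ch.lab (j + 2 ^ s) i) _ (H155.labX_mem hLB _ _ _)) _ u v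

/-- The value of the net pair is at least the curve of the top minus the coarse shifts. -/
theorem RouteW.C_le_WD (hR : RouteW Ch g s j i xs) (mc : Mach) (ω : Rnd) (t : ℕ) :
    (Ch.along mc ω hI.pt hI.hid_le).C (j + 2 ^ s) i ((t : ℤ) - H) ≤
      (WD ((2 ^ m) ^ 2 ^ s + 2)
        (pW ((2 ^ m) ^ 2 ^ s) g (labL m (Kc + 3) s (Ch.lab (j + 2 ^ s) i)))
        (a0T Ch g s j i * (2 ^ m) ^ 2 ^ s) (b0T Ch g s j i * (2 ^ m) ^ 2 ^ s)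
        (nodeW ((2 ^ m) ^ 2 ^ s) (ZT m w0 j (Ch.lab (j + 2 ^ s) i)) g μ B
          (loT m w0 s j (Ch.lab (j + 2 ^ s) i)) (labL m (Kc + 3) s (Ch.lab (j + 2 ^ s) i))
          (hist (clsPar m ℓ μ B w0 J S H (Kc + 3) D1) ω vis hid
            (rd (clsPar m ℓ μ B w0 J S H (Kc + 3) D1) mc ω vis hid) (j + 2 ^ s) i
            (Ch.lab (j + 2 ^ s) i) s) t) : ℝ) +
      4 * ((((2 ^ m) ^ 2 ^ s : ℕ) : ℝ) * ((ZT m w0 j (Ch.lab (j + 2 ^ s) i) / g : ℕ) : ℝ)) := by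
  have h1 : Nat.dist (posX ((2 ^ m) ^ 2 ^ s) (ZT m w0 j (Ch.lab (j + 2 ^ s) i)) g μ B
      (loT m w0 s j (Ch.lab (j + 2 ^ s) i)) (a0T Ch g s j i * (2 ^ m) ^ 2 ^ s)) (zT Ch s j i 0) ≤
      (2 ^ m) ^ 2 ^ s * (ZT m w0 j (Ch.lab (j + 2 ^ s) i) / g) := by
    have := hR.net.dist_zero
    rw [NetW.FW_zero] at this
    exact this
  have h2 : Nat.dist (posX ((2 ^ m) ^ 2 ^ s) (ZT m w0 j (Ch.lab (j + 2 ^ s) i)) g μ B
      (loT m w0 s j (Ch.lab (j + 2 ^ s) i)) (b0T Ch g s j i * (2 ^ m) ^ 2 ^ s))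
      (zT Ch s j i ((2 ^ m) ^ 2 ^ s)) ≤
      (2 ^ m) ^ 2 ^ s * (ZT m w0 j (Ch.lab (j + 2 ^ s) i) / g) := by
    have := hR.net.dist_last
    rw [NetW.FW_last] at this
    exact this
  have h3 := cR_le_WD hI (mc := mc) (ω := ω) hR.net.ne hR.a0_le hR.b0_le t
    (zT Ch s j i 0) (zT Ch s j i ((2 ^ m) ^ 2 ^ s))
  rw [Nat.dist_comm] at h1
  have h5 : (Ch.along mc ω hI.pt hI.hid_le).C (j + 2 ^ s) i ((t : ℤ) - H) =
      (cR (clsPar m ℓ μ B w0 J S H (Kc + 3) D1) mc ω vis hid (j + 2 ^ s) i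
        (Ch.lab (j + 2 ^ s) i) ((t : ℤ) - H) (zT Ch s j i 0)
        (zT Ch s j i ((2 ^ m) ^ 2 ^ s)) : ℝ) := by
    rw [zT_zero, zT_top]
    rfl
  rw [h5]
  obtain ⟨V, hV⟩ : ∃ V, V = WD ((2 ^ m) ^ 2 ^ s + 2)
        (pW ((2 ^ m) ^ 2 ^ s) g (labL m (Kc + 3) s (Ch.lab (j + 2 ^ s) i)))
        (a0T Ch g s j i * (2 ^ m) ^ 2 ^ s) (b0T Ch g s j i * (2 ^ m) ^ 2 ^ s)
        (nodeW ((2 ^ m) ^ 2 ^ s) (ZT m w0 j (Ch.lab (j + 2 ^ s) i)) g μ B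
          (loT m w0 s j (Ch.lab (j + 2 ^ s) i)) (labL m (Kc + 3) s (Ch.lab (j + 2 ^ s) i))
          (hist (clsPar m ℓ μ B w0 J S H (Kc + 3) D1) ω vis hid
            (rd (clsPar m ℓ μ B w0 J S H (Kc + 3) D1) mc ω vis hid) (j + 2 ^ s) i
            (Ch.lab (j + 2 ^ s) i) s) t) := ⟨_, rfl⟩
  rw [← hV] at h3 ⊢
  have h6 : cR (clsPar m ℓ μ B w0 J S H (Kc + 3) D1) mc ω vis hid (j + 2 ^ s) i
        (Ch.lab (j + 2 ^ s) i) ((t : ℤ) - H) (zT Ch s j i 0)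
        (zT Ch s j i ((2 ^ m) ^ 2 ^ s)) ≤ V +
      4 * ((2 ^ m) ^ 2 ^ s * (ZT m w0 j (Ch.lab (j + 2 ^ s) i) / g)) := by
    omega
  exact_mod_cast h6

/-- Coarse shifts in units of the mass. -/
theorem RouteW.coarse_le (hR : RouteW Ch g s j i xs) (mc : Mach) (ω : Rnd) (hj : j + 2 ^ s < n) :
    4 * ((((2 ^ m) ^ 2 ^ s : ℕ) : ℝ) * ((ZT m w0 j (Ch.lab (j + 2 ^ s) i) / g : ℕ) : ℝ)) ≤
      (Ch.along mc ω hI.pt hI.hid_le).W (j + 2 ^ s) i * (32 / g) := by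
  have hg : (0 : ℝ) < g := by exact_mod_cast hR.net.hg
  have h3 := KZ_le_W hI (i := i) mc ω hj
  have h4 : ((ZT m w0 j (Ch.lab (j + 2 ^ s) i) / g : ℕ) : ℝ) * g =
      (ZT m w0 j (Ch.lab (j + 2 ^ s) i) : ℕ) := by
    have := hR.net.hZ
    rw [mul_comm]
    exact_mod_cast this.symm
  rw [mul_div_assoc', le_div_iff₀ hg]
  rw [← h4] at h3
  nlinarith

/-- `hz2` of `plugW`, `e2 = 32 / g`. -/
theorem RouteW.hz2 (hR : RouteW Ch g s j i xs) (mc : Mach) (ω : Rnd) (hj : j + 2 ^ s < n)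
    (hi : i < (2 ^ m) ^ (n - (j + 2 ^ s))) (t : ℕ) :
    ∑ u : Fin ((2 ^ m) ^ 2 ^ s), (Ch.along mc ω hI.pt hI.hid_le).DE j (i * (2 ^ m) ^ 2 ^ s + u) -
      (∑ u : Fin ((2 ^ m) ^ 2 ^ s), (Ch.along mc ω hI.pt hI.hid_le).W j
        (i * (2 ^ m) ^ 2 ^ s + u)) * (32 / g) ≤
      (WD ((2 ^ m) ^ 2 ^ s + 2)
        (pW ((2 ^ m) ^ 2 ^ s) g (labL m (Kc + 3) s (Ch.lab (j + 2 ^ s) i)))
        (a0T Ch g s j i * (2 ^ m) ^ 2 ^ s) (b0T Ch g s j i * (2 ^ m) ^ 2 ^ s)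
        (nodeW ((2 ^ m) ^ 2 ^ s) (ZT m w0 j (Ch.lab (j + 2 ^ s) i)) g μ B
          (loT m w0 s j (Ch.lab (j + 2 ^ s) i)) (labL m (Kc + 3) s (Ch.lab (j + 2 ^ s) i))
          (hist (clsPar m ℓ μ B w0 J S H (Kc + 3) D1) ω vis hid
            (rd (clsPar m ℓ μ B w0 J S H (Kc + 3) D1) mc ω vis hid) (j + 2 ^ s) i
            (Ch.lab (j + 2 ^ s) i) s) t) : ℝ) := by
  rw [sum_W_fin hI mc ω s j i, Fin.sum_univ_eq_sum_range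
    (fun u => (Ch.along mc ω hI.pt hI.hid_le).DE j (i * (2 ^ m) ^ 2 ^ s + u)) ((2 ^ m) ^ 2 ^ s)]
  have h1 := (Ch.along mc ω hI.pt hI.hid_le).DE_units j (2 ^ s) i
  have h1' : ∑ u ∈ range ((2 ^ m) ^ 2 ^ s),
      (Ch.along mc ω hI.pt hI.hid_le).DE j (i * (2 ^ m) ^ 2 ^ s + u) =
      (Ch.along mc ω hI.pt hI.hid_le).DE (j + 2 ^ s) i := h1.symm
  rw [h1']
  have h2 := Inst2.DE_le_C hI mc ω hj.le hi ((t : ℤ) - H)
  have h3 := hR.C_le_WD hI mc ω t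
  have h4 := hR.coarse_le hI mc ω hj
  linarith

end Vale.Agent.P315.H638
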