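import Vale.Agent.P315.H638.PathW3

/-!
P315, milestone 2 (helper638): the remaining hypotheses of `H763.plugTop` for the route of
`H638/PathW`: `hkx`, `he`, `heW`.
-/

set_option autoImplicit false

open Finset

namespace Vale.Agent.P315.H638

open Vale.Agent.P315.C
open Vale.Agent.P315.H95 (cl bx ac wd lab mass InBox PathOK clsPar)
open Vale.Agent.P315.H808 (Chain Along)
open Vale.Agent.P315.H846 (Inst2)
open Vale.Agent.P315.H869.Units (Light wt)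
open Vale.Agent.P315.H763 (labL)
open Vale.Agent.P315.H155 (nodeW pW posX labX kxW)
open Vale.Agent.P315.H801 (posN)

variable {m ℓ μ B w0 J S H Kc D1 n κr : ℕ} {vis hid : Leaf} {S0 : ℕ → ℕ}
  {Ch : Chain (clsPar m ℓ μ B w0 J S H (Kc + 3) D1) vis hid n} {g s j i : ℕ} {xs : ℕ → ℕ}

/-- `hkx` of `plugTop`. -/
theorem RouteW.hkx (hR : RouteW Ch g s j i xs) {u : ℕ} (hu : u < (2 ^ m) ^ 2 ^ s) :
    kxW (m * 2 ^ s) (cl (Ch.lab (j + 2 ^ s) i))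
      (labX ((2 ^ m) ^ 2 ^ s) g (labL m (Kc + 3) s (Ch.lab (j + 2 ^ s) i))
        (fT Ch g s j i xs (u + 2))) =
      cl (Ch.lab j (i * (2 ^ m) ^ 2 ^ s + u)) - cl (Ch.lab (j + 2 ^ s) i) := by
  have h1 := hR.kx hu
  rw [hR.wt_eq u hu] at h1
  exact Nat.pow_right_injective le_rfl h1

/-- `he` of `plugTop`, `e = 4 K (Z / g)`. -/
theorem RouteW.he (hR : RouteW Ch g s j i xs) :
    2 * Nat.dist (Ch.pos (i * (2 ^ m) ^ (j + 2 ^ s)))
        (posN μ B (loT m w0 s j (Ch.lab (j + 2 ^ s) i)) (ZT m w0 j (Ch.lab (j + 2 ^ s) i)) g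
          (a0T Ch g s j i * (2 ^ m) ^ 2 ^ s)) +
      2 * Nat.dist (posN μ B (loT m w0 s j (Ch.lab (j + 2 ^ s) i))
          (ZT m w0 j (Ch.lab (j + 2 ^ s) i)) g (b0T Ch g s j i * (2 ^ m) ^ 2 ^ s))
        (Ch.pos ((i + 1) * (2 ^ m) ^ (j + 2 ^ s))) ≤
      4 * ((2 ^ m) ^ 2 ^ s * (ZT m w0 j (Ch.lab (j + 2 ^ s) i) / g)) := by
  have h1 := hR.net.dist_zero
  have h2 := hR.net.dist_last
  rw [NetW.FW_zero, H763.posX_of_le (H763.mul_le_aux hR.a0_le), Nat.dist_comm, zT_zero] at h1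
  rw [NetW.FW_last, H763.posX_of_le (H763.mul_le_aux hR.b0_le), zT_top] at h2
  omega

/-- The node numbers of the ends in terms of the positions of the slab. -/
theorem a0T_eq (g s j i : ℕ) : a0T Ch g s j i =
    cnW ((2 ^ m) ^ 2 ^ s) (loT m w0 s j (Ch.lab (j + 2 ^ s) i))
      (ZT m w0 j (Ch.lab (j + 2 ^ s) i) / g) (Ch.pos (i * (2 ^ m) ^ (j + 2 ^ s))) := by
  show cnW _ _ _ (zT Ch s j i 0) = _
  rw [zT_zero]

theorem b0T_eq (g s j i : ℕ) : b0T Ch g s j i =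
    cnW ((2 ^ m) ^ 2 ^ s) (loT m w0 s j (Ch.lab (j + 2 ^ s) i))
      (ZT m w0 j (Ch.lab (j + 2 ^ s) i) / g) (Ch.pos ((i + 1) * (2 ^ m) ^ (j + 2 ^ s))) := by
  show cnW _ _ _ (zT Ch s j i ((2 ^ m) ^ 2 ^ s)) = _
  rw [zT_top]

/-- `heW` of `plugTop`, `e2 = 32 / g`. -/
theorem RouteW.heW (hR : RouteW Ch g s j i xs)
    (hI : Inst2 (clsPar m ℓ μ B w0 J S H (Kc + 3) D1) m w0 Kc κr vis hid n S0 Ch)
    (mc : Mach) (ω : Rnd) (hj : j + 2 ^ s < n) :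
    ((4 * ((2 ^ m) ^ 2 ^ s * (ZT m w0 j (Ch.lab (j + 2 ^ s) i) / g)) : ℕ) : ℝ) ≤
      (Ch.along mc ω hI.pt hI.hid_le).W (j + 2 ^ s) i * (32 / g) := by
  have h1 := hR.coarse_le hI mc ω hj
  exact_mod_cast h1

end Vale.Agent.P315.H638
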